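import Crest.Agent.Lib.Bc.CloAbstract
/-!
# Row 163, `q = 3`, `lam < 0`: assembling the exit statements of `Neg3Assembly` from cells and windows

* `exit_of_chain`: an exit below the top breakpoint and a chain of false cells give an exit below the lowest breakpoint
  (for a list of breakpoints `exit_of_list`).
* `ExitB b`: the statement for one regular tree; `hxb_of`: all `5 ≤ b ≤ 28` from the single `b`.
* `ExitP d₁ d₂`: the statement for a window of Poisson degrees; `ExitP.trans`, `hxd_of`.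
-/
open Filter Topology
open Crest.ProbabilityR.Broadcast
namespace Crest.Agent.Lib.Bc.CloLite
open Crest.Agent.Lib.Bc

/-- An exit below the top breakpoint and false cells give an exit below the lowest breakpoint. -/
theorem exit_of_chain {s : ℕ → ℝ} (hanti : Antitone s) {t : ℕ → ℝ} {m : ℕ} (hex : ∃ N, s N < t m)
    (hcell : ∀ j, j < m → CellFalse s (t j) (t (j + 1))) : ∃ n, s n < t 0 := by
  obtain ⟨N, hN⟩ := hex
  have hs : Antitone fun n => s (N + n) := fun a b hab => hanti (Nat.add_le_add_left hab N)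
  obtain ⟨n, hn⟩ := cover hs (t := t) (m := m) (by simpa using hN) (fun j hj M hM =>
    hcell j hj (N + M) fun n hn => by
      obtain ⟨k, rfl⟩ : ∃ k, n = N + k := ⟨n - N, by omega⟩
      exact hM k (by omega))
  exact ⟨N + n, hn⟩

/-- The same with a list of breakpoints `t₀ :: l`. -/
theorem exit_of_list {s : ℕ → ℝ} (hanti : Antitone s) (t₀ : ℝ) (l : List ℝ)
    (hex : ∃ N, s N < (t₀ :: l).getLast (by simp))
    (hcell : List.IsChain (CellFalse s) (t₀ :: l)) : ∃ n, s n < t₀ := by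
  obtain ⟨N, hN⟩ := hex
  have hs : Antitone fun n => s (N + n) := fun a b hab => hanti (Nat.add_le_add_left hab N)
  have hmono : ∀ a b, CellFalse s a b → CellFalse (fun n => s (N + n)) a b := fun a b h M hM =>
    h (N + M) fun n hn => by
      obtain ⟨k, rfl⟩ : ∃ k, n = N + k := ⟨n - N, by omega⟩
      exact hM k (by omega)
  obtain ⟨n, hn⟩ := cover_list hs t₀ l (by simpa using hN) (hcell.imp (fun {a b} => hmono a b))
  exact ⟨N + n, hn⟩

/-- The exit statement for one regular tree. -/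
def ExitB (b : ℕ) (s0 : ℝ) : Prop :=
  ∀ lam : ℝ, lam < 0 → (b : ℝ) * lam ^ 2 = 1 → ∀ hch : ∀ i j : Fin 3, 0 ≤ channel 3 lam i j,
    ∃ n, momS (leafSL 3 b lam n (by norm_num) hch) < s0

/-- The exit statement for a window of Poisson degrees. -/
def ExitP (d₁ d₂ s0 : ℝ) : Prop :=
  ∀ d : ℝ, ∀ hd : 0 ≤ d, d₁ ≤ d → d ≤ d₂ → ∀ lam : ℝ, lam < 0 → d * lam ^ 2 = 1 →
    ∀ hch : ∀ i j : Fin 3, 0 ≤ channel 3 lam i j, ∃ n, momS (gwSL 3 lam d n hd (by norm_num) hch) < s0

/-- windows glue -/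
theorem ExitP.trans {a b c s0 : ℝ} (h₁ : ExitP a b s0) (h₂ : ExitP b c s0) : ExitP a c s0 := by
  intro d hd h1 h2
  rcases le_total d b with h | h
  · exact h₁ d hd h1 h
  · exact h₂ d hd h h2

/-- the shape needed in `Neg3Assembly` for the regular trees -/
theorem hxb_of
    (h5 : ExitB 5 (1 / 25)) (h6 : ExitB 6 (1 / 25)) (h7 : ExitB 7 (1 / 25)) (h8 : ExitB 8 (1 / 25))
    (h9 : ExitB 9 (1 / 25)) (h10 : ExitB 10 (1 / 25)) (h11 : ExitB 11 (1 / 25)) (h12 : ExitB 12 (1 / 25))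
    (h13 : ExitB 13 (1 / 25)) (h14 : ExitB 14 (1 / 25)) (h15 : ExitB 15 (1 / 25)) (h16 : ExitB 16 (1 / 25))
    (h17 : ExitB 17 (1 / 25)) (h18 : ExitB 18 (1 / 25)) (h19 : ExitB 19 (1 / 25)) (h20 : ExitB 20 (1 / 25))
    (h21 : ExitB 21 (1 / 25)) (h22 : ExitB 22 (1 / 25)) (h23 : ExitB 23 (1 / 25)) (h24 : ExitB 24 (1 / 25))
    (h25 : ExitB 25 (1 / 25)) (h26 : ExitB 26 (1 / 25)) (h27 : ExitB 27 (1 / 25)) (h28 : ExitB 28 (1 / 25)) :
    ∀ b : ℕ, 5 ≤ b → b ≤ 28 → ∀ lam : ℝ, lam < 0 → (b : ℝ) * lam ^ 2 = 1 →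
      ∀ hch : ∀ i j : Fin 3, 0 ≤ channel 3 lam i j,
      ∃ n, momS (leafSL 3 b lam n (by norm_num) hch) < 1 / 25 := by
  intro b h1 h2
  interval_cases b <;> assumption

/-- the shape needed in `Neg3Assembly` for the Poisson trees -/
theorem hxd_of (h : ExitP 4 (2845 / 100) (1 / 25)) :
    ∀ d : ℝ, ∀ hd4 : 4 ≤ d, d ≤ 2845 / 100 → ∀ lam : ℝ, lam < 0 → d * lam ^ 2 = 1 →
      ∀ hch : ∀ i j : Fin 3, 0 ≤ channel 3 lam i j,
      ∃ n, momS (gwSL 3 lam d n (by linarith) (by norm_num) hch) < 1 / 25 :=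
  fun d hd4 hd2 => h d (by linarith) hd4 hd2

end Crest.Agent.Lib.Bc.CloLite
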