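import Crest.Agent.Lib.Bc.CloAbstract
/-!
# Row 163, `q = 3`, `lam < 0`: closure without classes, the pointwise forms

Polynomials in `Z` with rational coefficients as lists (`UP`), and the four majorants of helper37 (finding 2123)
of `Kz a`, `Kz c`, `Kz (-c)`, `Kz a²` by `pZ(Z) + X pX(Z) + W pW(Z) + X² pXX(Z)`.  All checks are Booleans on rationals.
-/
open scoped BigOperators
namespace Crest.Agent.Lib.Bc.CloLite

/-- polynomial in one variable, low degree first -/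
abbrev UP := List ℚ

noncomputable def ev : UP → ℝ → ℝ
  | [], _ => 0
  | c :: p, z => (c : ℝ) + z * ev p z

def upAdd : UP → UP → UP
  | [], q => q
  | p, [] => p
  | a :: p, b :: q => (a + b) :: upAdd p q

def upScale (k : ℚ) (p : UP) : UP := p.map (k * ·)

def upMul : UP → UP → UP
  | [], _ => []
  | a :: p, q => upAdd (upScale a q) ((0 : ℚ) :: upMul p q)

@[simp] lemma ev_nil (z : ℝ) : ev [] z = 0 := rfl
@[simp] lemma ev_cons (c : ℚ) (p : UP) (z : ℝ) : ev (c :: p) z = (c : ℝ) + z * ev p z := rfl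

lemma ev_add (p q : UP) (z : ℝ) : ev (upAdd p q) z = ev p z + ev q z := by
  induction p generalizing q with
  | nil => simp [upAdd]
  | cons a p ih =>
    cases q with
    | nil => simp [upAdd]
    | cons b q => simp [upAdd, ih]; ring

lemma ev_scale (k : ℚ) (p : UP) (z : ℝ) : ev (upScale k p) z = k * ev p z := by
  induction p with
  | nil => simp [upScale]
  | cons a p ih =>
    simp only [upScale, List.map_cons, ev_cons] at ih ⊢
    rw [ih]; push_cast; ring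

lemma ev_mul (p q : UP) (z : ℝ) : ev (upMul p q) z = ev p z * ev q z := by
  induction p with
  | nil => simp [upMul]
  | cons a p ih =>
    simp only [upMul, ev_add, ev_scale, ev_cons, ih]; push_cast; ring

/-- drop the constant term -/
def upTail : UP → UP := List.tail
def upHead : UP → ℚ := fun p => p.headD 0

lemma ev_eq_head_tail (p : UP) (z : ℝ) : ev p z = (upHead p : ℝ) + z * ev (upTail p) z := by
  cases p with
  | nil => simp [upHead, upTail]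
  | cons a p => simp [upHead, upTail]

/-- nonnegativity on `z ≥ 0` of a quadratic `g0 + g1 z + g2 z²` -/
def nnQ : UP → Bool
  | [g0, g1, g2] => decide (0 ≤ g0) && decide (0 ≤ g2) && (decide (0 ≤ g1) || decide (g1 * g1 ≤ 4 * g0 * g2))
  | _ => false

lemma nnQ_sound {p : UP} (h : nnQ p = true) {z : ℝ} (hz : 0 ≤ z) : 0 ≤ ev p z := by
  match p, h with
  | [g0, g1, g2], h =>
    simp only [nnQ, Bool.and_eq_true, Bool.or_eq_true, decide_eq_true_eq] at h
    obtain ⟨⟨h0, h2⟩, h1⟩ := h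
    have h0' : (0 : ℝ) ≤ g0 := by exact_mod_cast h0
    have h2' : (0 : ℝ) ≤ g2 := by exact_mod_cast h2
    simp only [ev_cons, ev_nil, mul_zero, add_zero]
    rcases h1 with h1 | h1
    · have h1' : (0 : ℝ) ≤ g1 := by exact_mod_cast h1
      positivity
    · have h1' : (g1 : ℝ) * g1 ≤ 4 * g0 * g2 := by exact_mod_cast h1
      -- discriminant
      by_cases hg : (g2 : ℝ) = 0
      · have : (g1 : ℝ) = 0 := by
          have : (g1 : ℝ) * g1 ≤ 0 := by rw [hg] at h1'; simpa using h1'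
          nlinarith
        rw [this, hg]; simpa using h0'
      · have hg' : 0 < (g2 : ℝ) := lt_of_le_of_ne h2' (Ne.symm hg)
        have key : 0 ≤ 4 * (g2 : ℝ) * ((g0 : ℝ) + z * ((g1 : ℝ) + z * (g2 : ℝ))) := by
          nlinarith [sq_nonneg (2 * (g2 : ℝ) * z + g1)]
        nlinarith

/-- the data of a bound `pZ(Z) + X pX(Z) + W pW(Z) + X² pXX(Z)` -/
structure Fm where
  pZ : UP
  pX : UP
  pW : UP
  pXX : UP

noncomputable def evF (F : Fm) (ℓ : Fin 3 → ℝ) : ℝ :=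
  ev F.pZ (Zl ℓ) + Xt ℓ * ev F.pX (Zl ℓ) + Wl ℓ * ev F.pW (Zl ℓ) + Xt ℓ ^ 2 * ev F.pXX (Zl ℓ)

/-- `z` -/
def upZ : UP := [0, 1]
lemma ev_upZ (z : ℝ) : ev upZ z = z := by simp [upZ]

/-! ### s+ : `P(0)² = 1`, `Kz a ≤ Z - X (1-P²)/Z` -/
def oneMinusSq (P : UP) : UP := upAdd [1] (upScale (-1) (upMul P P))
def fmS (P : UP) : Fm := ⟨upZ, upScale (-1) (upTail (oneMinusSq P)), [], []⟩
def okS (P : UP) : Bool := decide (upHead (oneMinusSq P) = 0)

theorem bound_S {P : UP} (h : okS P = true) {ℓ : Fin 3 → ℝ} (hℓ : ∀ i, 0 ≤ ℓ i) :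
    Kz 3 (aFn 3) ℓ ≤ evF (fmS P) ℓ := by
  have h0 : upHead (oneMinusSq P) = 0 := by simpa [okS] using h
  have hQ : ∀ z : ℝ, 0 < z → z * ev (upTail (oneMinusSq P)) z ≤ 1 := fun z _ => by
    have e := ev_eq_head_tail (oneMinusSq P) z
    rw [h0] at e
    have e2 : ev (oneMinusSq P) z = 1 - ev P z * ev P z := by
      simp [oneMinusSq, ev_add, ev_scale, ev_mul]; ring
    have : (((0 : ℚ) : ℝ)) = 0 := by norm_num
    rw [this] at e
    nlinarith [mul_self_nonneg (ev P z)]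
  have := Kz_aFn_le (fun z => ev (upTail (oneMinusSq P)) z) hQ hℓ
  refine this.trans (le_of_eq ?_)
  simp only [evF, fmS, ev_scale, ev_upZ, ev_nil]
  push_cast; ring

/-! ### common: `A = P² G` -/
def sqG (P G : UP) : UP := upMul (upMul P P) G

lemma sqG_nonneg {P G : UP} (h : nnQ G = true) {z : ℝ} (hz : 0 ≤ z) : 0 ≤ ev (sqG P G) z := by
  simp only [sqG, ev_mul]
  exact mul_nonneg (mul_self_nonneg _) (nnQ_sound h hz)

/-- `D - 1 - z q1` -/
def dMinus (D q1 : UP) : UP := upAdd (upAdd D [-1]) (upScale (-1) ((0 : ℚ) :: q1))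

lemma ev_dMinus (D q1 : UP) (z : ℝ) : ev (dMinus D q1) z = ev D z - 1 - z * ev q1 z := by
  simp [dMinus, ev_add, ev_scale]; ring

/-! ### rho+ -/
structure Par where
  P1 : UP
  G1 : UP
  P2 : UP
  G2 : UP

def qR1 (p : Par) : UP := upTail (upAdd (sqG p.P1 p.G1) [-3 / 2])
def qR2 (p : Par) : UP := upTail (upTail (dMinus (sqG p.P2 p.G2) (qR1 p)))
def fmR (p : Par) : Fm := ⟨upZ, qR1 p, qR2 p, []⟩
def okR (p : Par) : Bool :=
  nnQ p.G1 && nnQ p.G2 && decide (upHead (upAdd (sqG p.P1 p.G1) [-3 / 2]) = 0) &&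
    decide (upHead (dMinus (sqG p.P2 p.G2) (qR1 p)) = 0) &&
    decide (upHead (upTail (dMinus (sqG p.P2 p.G2) (qR1 p))) = 0)

lemma ev_shift_zero {p : UP} (h : upHead p = 0) (z : ℝ) : ev p z = z * ev (upTail p) z := by
  have e := ev_eq_head_tail p z
  rw [h] at e
  simpa using e

theorem bound_R {p : Par} (h : okR p = true) {ℓ : Fin 3 → ℝ} (hℓ : ∀ i, 0 ≤ ℓ i) :
    Kz 3 cFn ℓ ≤ evF (fmR p) ℓ := by
  simp only [okR, Bool.and_eq_true, decide_eq_true_eq] at h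
  obtain ⟨⟨⟨⟨g1, g2⟩, h1⟩, h2⟩, h3⟩ := h
  have hA : ∀ z : ℝ, 0 < z → 0 ≤ z * ev (qR1 p) z + 3 / 2 := fun z hz => by
    have e := ev_shift_zero h1 z
    simp only [ev_add, ev_cons, ev_nil] at e
    have := sqG_nonneg (P := p.P1) g1 hz.le
    have e3 : ((-3 / 2 : ℚ) : ℝ) = -3 / 2 := by norm_num
    rw [e3] at e
    show 0 ≤ z * ev (upTail (upAdd (sqG p.P1 p.G1) [-3 / 2])) z + 3 / 2
    linarith
  have hD : ∀ z : ℝ, 0 < z → 0 ≤ z * ev (qR1 p) z + z ^ 2 * ev (qR2 p) z + 1 := fun z hz => by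
    have e1 := ev_shift_zero h2 z
    have e2 := ev_shift_zero h3 z
    rw [ev_dMinus] at e1
    have := sqG_nonneg (P := p.P2) g2 hz.le
    show 0 ≤ z * ev (qR1 p) z + z ^ 2 * ev (upTail (upTail (dMinus (sqG p.P2 p.G2) (qR1 p)))) z + 1
    rw [e2] at e1
    nlinarith
  have := Kz_cFn_le (fun z => ev (qR1 p) z) (fun z => ev (qR2 p) z) hA hD hℓ
  refine this.trans (le_of_eq ?_)
  simp only [evF, fmR, ev_upZ, ev_nil]
  ring

/-! ### rho- : new majorant (helper37's FL) -/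
def qL2 (p : Par) : UP := upScale (-1 / 2) (upTail (upTail (upAdd (sqG p.P2 p.G2) [-1])))
def fmL (p : Par) : Fm :=
  ⟨upAdd (upScale (-1) upZ) ((0 : ℚ) :: sqG p.P1 p.G1), upScale (-1) (qR1 p), upScale (-1) (qL2 p), []⟩
def okL (p : Par) : Bool :=
  nnQ p.G1 && nnQ p.G2 && decide (upHead (upAdd (sqG p.P1 p.G1) [-3 / 2]) = 0) &&
    decide (upHead (upAdd (sqG p.P2 p.G2) [-1]) = 0) &&
    decide (upHead (upTail (upAdd (sqG p.P2 p.G2) [-1])) = 0)

lemma BddS_negc : SLaw.BddS (fun x => - cFn x) := by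
  obtain ⟨C, hC⟩ := BddS_cFn
  exact ⟨C, fun x hx => by simpa using hC x hx⟩

lemma Kz_neg (f : (Fin 3 → ℝ) → ℝ) (ℓ : Fin 3 → ℝ) : Kz 3 (fun x => - f x) ℓ = - Kz 3 f ℓ := by
  simp only [Kz_eq]; ring

theorem bound_L {p : Par} (h : okL p = true) {ℓ : Fin 3 → ℝ} (hℓ : ∀ i, 0 ≤ ℓ i) :
    Kz 3 (fun x => - cFn x) ℓ ≤ evF (fmL p) ℓ := by
  simp only [okL, Bool.and_eq_true, decide_eq_true_eq] at h
  obtain ⟨⟨⟨⟨g1, g2⟩, h1⟩, h2⟩, h3⟩ := h
  rw [Kz_neg, Kz_cFn hℓ]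
  by_cases hZ : Zl ℓ = 0
  · have e0 : Xt ℓ = 0 := by
      unfold Xt; rw [zero_of_Zl hℓ hZ 0, zero_of_Zl hℓ hZ 1]; simp
    have e1 : Wl ℓ = 0 := by
      unfold Wl; rw [zero_of_Zl hℓ hZ 0]; simp
    simp [evF, fmL, hZ, e0, e1, ev_add, ev_scale, upZ]
  · have hpos : 0 < Zl ℓ := lt_of_le_of_ne (Zl_nonneg hℓ) (Ne.symm hZ)
    set Z := Zl ℓ with hZdef
    set X := Xt ℓ with hXdef
    set W := Wl ℓ with hWdef
    have hX : 0 ≤ X := Xt_nonneg hℓ
    have hW : 0 ≤ W := Wl_nonneg hℓ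
    have hXZ : X ≤ Z ^ 2 := Xt_le_Zsq
    set A := ev (sqG p.P1 p.G1) Z with hA
    set N := ev (sqG p.P2 p.G2) Z with hN
    have hA0 : 0 ≤ A := sqG_nonneg g1 hpos.le
    have hN0 : 0 ≤ N := sqG_nonneg g2 hpos.le
    set q1 := ev (qR1 p) Z with hq1
    set q2 := ev (qL2 p) Z with hq2
    have eA : A = Z * q1 + 3 / 2 := by
      have e := ev_shift_zero h1 Z
      simp only [ev_add, ev_cons, ev_nil] at e
      have e3 : ((-3 / 2 : ℚ) : ℝ) = -3 / 2 := by norm_num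
      rw [e3] at e
      have : ev (upTail (upAdd (sqG p.P1 p.G1) [-3 / 2])) Z = q1 := rfl
      rw [this] at e
      linarith
    have eN : N = 1 - 2 * Z ^ 2 * q2 := by
      have e1' := ev_shift_zero h2 Z
      have e2' := ev_shift_zero h3 Z
      rw [e2'] at e1'
      simp only [ev_add, ev_cons, ev_nil] at e1'
      have e3 : ((-1 : ℚ) : ℝ) = -1 := by norm_num
      rw [e3] at e1'
      have e4 : q2 = (-1 / 2) * ev (upTail (upTail (upAdd (sqG p.P2 p.G2) [-1]))) Z := by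
        rw [hq2]; simp only [qL2, ev_scale]; push_cast; ring
      rw [e4]; nlinarith
    have goal : evF (fmL p) ℓ = -(Z + X * q1 + W * q2 - Z * A) := by
      simp only [evF, fmL, ev_add, ev_scale, ev_upZ, ev_cons, ev_nil]
      rw [← hZdef, ← hXdef, ← hWdef, ← hA, ← hq1, ← hq2]
      push_cast; ring
    rw [goal]
    have e : (Z - 3 / 2 * (X / Z) + 1 / 2 * (W / Z ^ 2)) - (Z + X * q1 + W * q2 - Z * A)
        = A * (Z ^ 2 - X) / Z + W * N / (2 * Z ^ 2) := by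
      rw [eA, eN]; field_simp; ring
    have h5 : 0 ≤ A * (Z ^ 2 - X) / Z + W * N / (2 * Z ^ 2) := by
      have h6 : 0 ≤ Z ^ 2 - X := by linarith
      positivity
    linarith

/-! ### r+ -/
def qQ1 (p : Par) : UP := upTail (upAdd (sqG p.P1 p.G1) [-2])
def qQ2 (p : Par) : UP := upTail (upTail (upTail (dMinus (sqG p.P2 p.G2) (qQ1 p))))
def fmQ (p : Par) : Fm := ⟨upZ, qQ1 p, [], qQ2 p⟩
def okQ (p : Par) : Bool :=
  nnQ p.G1 && nnQ p.G2 && decide (upHead (upAdd (sqG p.P1 p.G1) [-2]) = 0) &&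
    decide (upHead (dMinus (sqG p.P2 p.G2) (qQ1 p)) = 0) &&
    decide (upHead (upTail (dMinus (sqG p.P2 p.G2) (qQ1 p))) = 0) &&
    decide (upHead (upTail (upTail (dMinus (sqG p.P2 p.G2) (qQ1 p)))) = 0)

theorem bound_Q {p : Par} (h : okQ p = true) {ℓ : Fin 3 → ℝ} (hℓ : ∀ i, 0 ≤ ℓ i) :
    Kz 3 (fun x => aFn 3 x ^ 2) ℓ ≤ evF (fmQ p) ℓ := by
  simp only [okQ, Bool.and_eq_true, decide_eq_true_eq] at h
  obtain ⟨⟨⟨⟨⟨g1, g2⟩, h1⟩, h2⟩, h3⟩, h4⟩ := h
  have hA : ∀ z : ℝ, 0 < z → 0 ≤ z * ev (qQ1 p) z + 2 := fun z hz => by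
    have e := ev_shift_zero h1 z
    simp only [ev_add, ev_cons, ev_nil] at e
    have := sqG_nonneg (P := p.P1) g1 hz.le
    have e3 : ((-2 : ℚ) : ℝ) = -2 := by norm_num
    rw [e3] at e
    show 0 ≤ z * ev (upTail (upAdd (sqG p.P1 p.G1) [-2])) z + 2
    linarith
  have hD : ∀ z : ℝ, 0 < z → 0 ≤ z * ev (qQ1 p) z + z ^ 3 * ev (qQ2 p) z + 1 := fun z hz => by
    have e1 := ev_shift_zero h2 z
    have e2 := ev_shift_zero h3 z
    have e3 := ev_shift_zero h4 z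
    rw [ev_dMinus] at e1
    have := sqG_nonneg (P := p.P2) g2 hz.le
    show 0 ≤ z * ev (qQ1 p) z + z ^ 3 * ev (upTail (upTail (upTail (dMinus (sqG p.P2 p.G2) (qQ1 p))))) z + 1
    rw [e2, e3] at e1
    nlinarith
  have := Kz_a2_le (fun z => ev (qQ1 p) z) (fun z => ev (qQ2 p) z) hA hD hℓ
  refine this.trans (le_of_eq ?_)
  simp only [evF, fmQ, ev_upZ, ev_nil]
  ring

end Crest.Agent.Lib.Bc.CloLite
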