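import Crest.Agent.Lib.Bc.CloWeights
import Crest.Agent.Lib.Bc.CloLite.Forms
/-!
# Row 163, `q = 3`, `lam < 0`: bridge between the model layer (`CloStep`, `CloWeights`) and the checker (`CloLite`)

With `mu = -lam`, `s, ρ, r, τ` the moments of the level `n` law and `x = mu ρ`, `y = mu² r`, `z = mu³ τ`:
both tree models satisfy, for every majorant `F`,
`Φ_{M_(n+1)} f ≤ Σ_i (wL5 F)_i * GG m (k₁ s - k₂ x + k₃ y - k₄ z)`,
`GG (reg b) E = (1 + E/b)^b`, `GG pois E = exp E`.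
The statement `StepBound m mu M` packages this for a sequence of laws.
-/
open scoped BigOperators
open Crest.ProbabilityR.Broadcast
namespace Crest.Agent.Lib.Bc.CloLite
open Crest.Agent.Lib.Bc

/-- the two tree models -/
inductive Mdl
  | reg (b : ℕ)
  | pois

/-- the single-exponent function of the model -/
noncomputable def GG : Mdl → ℝ → ℝ
  | .reg b, E => (1 + E / b) ^ b
  | .pois, E => Real.exp E

lemma GG_reg (b : ℕ) (E : ℝ) : GG (.reg b) E = (1 + E / b) ^ b := rfl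
lemma GG_pois (E : ℝ) : GG .pois E = Real.exp E := rfl

/-- `k₁ s - k₂ x + k₃ y - k₄ z` -/
noncomputable def EE (k : CloStep.Kq) (s x y z : ℝ) : ℝ :=
  (k.1 : ℝ) * s - (k.2.1 : ℝ) * x + (k.2.2.1 : ℝ) * y - (k.2.2.2 : ℝ) * z

/-- the exponent of a law at tilt `mu` -/
noncomputable def EEm (mu : ℝ) (k : CloStep.Kq) (M : SLaw 3) : ℝ :=
  EE k (momS M) (mu * momC M) (mu ^ 2 * momR M) (mu ^ 3 * momT M)

lemma LqT_eq (lam : ℝ) (k : CloStep.Kq) (M : SLaw 3) :
    CloStep.LqT k lam M = lam ^ 2 * EEm (-lam) k M := by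
  simp only [CloStep.LqT, CloStep.Lq, EEm, EE]
  ring

/-- same polynomial, two evaluators -/
lemma ev_eq_evP (p : UP) (z : ℝ) : ev p z = CloStep.evP p z := by
  induction p with
  | nil => rfl
  | cons a t ih => simp only [ev_cons, CloStep.evP, ih]

/-- the form in the model layer's format -/
def toStep (F : Fm) : CloStep.Fm := ⟨F.pZ, F.pX, F.pW, F.pXX⟩

lemma evF_toStep (F : Fm) (ℓ : Fin 3 → ℝ) : CloStep.evF (toStep F) ℓ = evF F ℓ := by
  simp only [CloStep.evF, toStep, evF, ev_eq_evP]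

/-- the weights of a form -/
def wF (F : Fm) : List ℚ := CloStep.wL5 (toStep F)

/-- the length conditions of a form of per-child degree `≤ 5` -/
def okLen (F : Fm) : Bool :=
  decide (F.pZ.length ≤ 6) && decide (F.pX.length ≤ 4) && decide (F.pW.length ≤ 3) && decide (F.pXX.length ≤ 2)

/-- the one-step bound for a sequence of laws -/
def StepBound (m : Mdl) (mu : ℝ) (M : ℕ → SLaw 3) : Prop :=
  ∀ (n : ℕ) (f : (Fin 3 → ℝ) → ℝ), SLaw.BddS f → ∀ F : Fm, okLen F = true →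
    (∀ ℓ : Fin 3 → ℝ, (∀ i, 0 ≤ ℓ i) → Kz 3 f ℓ ≤ evF F ℓ) →
    (M (n + 1)).Φ f ≤ CloStep.dotW (wF F) (CloStep.kL5.map fun k => GG m (EEm mu k (M n)))

private lemma okLen_parts {F : Fm} (h : okLen F = true) :
    F.pZ.length ≤ 6 ∧ F.pX.length ≤ 4 ∧ F.pW.length ≤ 3 ∧ F.pXX.length ≤ 2 := by
  simp only [okLen, Bool.and_eq_true, decide_eq_true_eq] at h
  exact ⟨h.1.1.1, h.1.1.2, h.1.2, h.2⟩

/-- **Bridge, regular tree.** -/
theorem stepBound_leaf (b : ℕ) (hb : 0 < b) (lam : ℝ) (hbl : (b : ℝ) * lam ^ 2 = 1)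
    (hch : ∀ i j : Fin 3, 0 ≤ channel 3 lam i j) :
    StepBound (.reg b) (-lam) (fun n => leafSL 3 b lam n (by norm_num) hch) := by
  intro n f hf F hF hle
  obtain ⟨h1, h2, h3, h4⟩ := okLen_parts hF
  have h := CloStep.leaf_bound5 b lam hch n hf (toStep F) h1 h2 h3 h4
    (fun ℓ hℓ => by rw [evF_toStep]; exact hle ℓ hℓ)
  refine h.trans_eq ?_
  unfold wF
  congr 1
  refine List.map_congr_left fun k _ => ?_
  have hb' : (b : ℝ) ≠ 0 := by exact_mod_cast hb.ne'
  have e : lam ^ 2 = 1 / b := by field_simp; linarith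
  rw [LqT_eq, GG_reg, e]
  congr 2
  ring

/-- **Bridge, Poisson tree.** -/
theorem stepBound_gw (d : ℝ) (hd : 0 ≤ d) (lam : ℝ) (hdl : d * lam ^ 2 = 1)
    (hch : ∀ i j : Fin 3, 0 ≤ channel 3 lam i j) :
    StepBound .pois (-lam) (fun n => gwSL 3 lam d n hd (by norm_num) hch) := by
  intro n f hf F hF hle
  obtain ⟨h1, h2, h3, h4⟩ := okLen_parts hF
  have h := CloStep.gw_bound5 lam d hd hch n hf (toStep F) h1 h2 h3 h4
    (fun ℓ hℓ => by rw [evF_toStep]; exact hle ℓ hℓ)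
  refine h.trans_eq ?_
  unfold wF
  congr 1
  refine List.map_congr_left fun k _ => ?_
  rw [LqT_eq, GG_pois, ← mul_assoc, hdl, one_mul]

end Crest.Agent.Lib.Bc.CloLite
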