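import Crest.Agent.Lib.Bc.CloLite.Bridge
import Crest.Agent.Lib.Bc.ExpQ
/-!
# Row 163, `q = 3`, `lam < 0`: closure without classes, the rational checker

`GG M E` is `(1 + E / b) ^ b` (regular tree with `b` children) or `exp E` (Poisson tree).  A finite combination
`∑ w_i GG M (k_i · v)` on a box of the coordinates `v` is bounded above by an explicit linear function of `v`
(chords for `w_i ≥ 0`, tangents for `w_i < 0`).  Everything is a total function on `ℚ`.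

`checkCell` is the test of one cell `[s₁, s₂)` of the moment `s`: rounds of enclosure of `ρ, r` and the final relative
test `s_(n+1) ≤ s_n - κ`.  `cell_false`: the test implies `CellFalse`.
-/
open scoped BigOperators
namespace Crest.Agent.Lib.Bc.CloLite

/-! ### rounding -/
def rdn (k : ℕ) (q : ℚ) : ℚ := ((⌊q * 2 ^ k⌋ : ℤ) : ℚ) / 2 ^ k
def rup (k : ℕ) (q : ℚ) : ℚ := - rdn k (-q)

lemma rdn_le (k : ℕ) (q : ℚ) : rdn k q ≤ q := by
  have h := Int.floor_le (q * 2 ^ k)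
  have hk : (0 : ℚ) < 2 ^ k := by positivity
  unfold rdn
  rw [div_le_iff₀ hk]
  exact h

lemma le_rup (k : ℕ) (q : ℚ) : q ≤ rup k q := by
  have := rdn_le k (-q)
  unfold rup
  linarith

def qmax (a b : ℚ) : ℚ := if a ≤ b then b else a

lemma le_qmax_left (a b : ℚ) : a ≤ qmax a b := by
  unfold qmax; split_ifs with h
  · exact h
  · exact le_rfl
lemma le_qmax_right (a b : ℚ) : b ≤ qmax a b := by
  unfold qmax; split_ifs with h
  · exact le_rfl
  · exact (not_le.1 h).le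

/-! ### the model -/

/-- the domain of `GG` -/
def DomE : Mdl → ℝ → Prop
  | .reg b, E => 0 < b ∧ 0 ≤ 1 + E / b
  | .pois, _ => True

lemma GG_nonneg {M : Mdl} {E : ℝ} (h : DomE M E) : 0 ≤ GG M E := by
  cases M with
  | reg b => exact pow_nonneg h.2 _
  | pois => exact (Real.exp_pos _).le

/-- any line above `GG` at both ends is above it between -/
lemma GG_chord {M : Mdl} {lo hi E c σ : ℝ} (hlo : DomE M lo) (h1 : lo ≤ E) (h2 : E ≤ hi)
    (hL1 : GG M lo ≤ c + σ * lo) (hL2 : GG M hi ≤ c + σ * hi) : GG M E ≤ c + σ * E := by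
  rcases eq_or_lt_of_le (h1.trans h2) with heq | hlt
  · have : E = lo := by linarith
    rw [this]; exact hL1
  have hw : 0 < hi - lo := by linarith
  set θ := (E - lo) / (hi - lo) with hθ
  have hθ0 : 0 ≤ θ := div_nonneg (by linarith) hw.le
  have hθ1 : θ ≤ 1 := by rw [hθ, div_le_one hw]; linarith
  have hE : E = (1 - θ) * lo + θ * hi := by
    rw [hθ]; field_simp; ring
  have key : GG M E ≤ (1 - θ) * GG M lo + θ * GG M hi := by
    cases M with
    | reg b =>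
      have hb : (0 : ℝ) < b := by exact_mod_cast hlo.1
      have hu1 : (0 : ℝ) ≤ 1 + lo / b := hlo.2
      have hu2 : (0 : ℝ) ≤ 1 + hi / b := by
        have : lo / b ≤ hi / b := div_le_div_of_nonneg_right (by linarith) hb.le
        linarith
      have h := (convexOn_pow b).2 (Set.mem_Ici.2 hu1) (Set.mem_Ici.2 hu2) (by linarith : 0 ≤ 1 - θ) hθ0
        (by ring : (1 - θ) + θ = 1)
      simp only [smul_eq_mul] at h
      have e : 1 + E / b = (1 - θ) * (1 + lo / b) + θ * (1 + hi / b) := by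
        rw [hE]; field_simp; ring
      show (1 + E / b) ^ b ≤ (1 - θ) * (1 + lo / b) ^ b + θ * (1 + hi / b) ^ b
      rw [e]; exact h
    | pois =>
      have h := convexOn_exp.2 (Set.mem_univ lo) (Set.mem_univ hi) (by linarith : 0 ≤ 1 - θ) hθ0
        (by ring : (1 - θ) + θ = 1)
      simp only [smul_eq_mul] at h
      show Real.exp E ≤ (1 - θ) * Real.exp lo + θ * Real.exp hi
      rw [hE]; exact h
  have h5 : (1 - θ) * GG M lo ≤ (1 - θ) * (c + σ * lo) := mul_le_mul_of_nonneg_left hL1 (by linarith)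
  have h6 : θ * GG M hi ≤ θ * (c + σ * hi) := mul_le_mul_of_nonneg_left hL2 hθ0
  have : c + σ * E = (1 - θ) * (c + σ * lo) + θ * (c + σ * hi) := by rw [hE]; ring
  linarith

/-- the tangent inequality for powers -/
lemma pow_tangent {u m : ℝ} (hu : 0 ≤ u) (hm : 0 ≤ m) (n : ℕ) :
    m ^ (n + 1) + (n + 1) * m ^ n * (u - m) ≤ u ^ (n + 1) := by
  induction n with
  | zero => simp
  | succ n ih =>
    have h1 : (m ^ (n + 1) + (n + 1) * m ^ n * (u - m)) * u ≤ u ^ (n + 1) * u :=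
      mul_le_mul_of_nonneg_right ih hu
    have h2 : 0 ≤ (n + 1) * m ^ n * (u - m) ^ 2 := by positivity
    push_cast
    have e : u ^ (n + 1 + 1) = u ^ (n + 1) * u := pow_succ _ _
    rw [e]
    have e2 : m ^ (n + 1 + 1) = m ^ n * m * m := by ring
    have e3 : m ^ (n + 1) = m ^ n * m := by ring
    rw [e2]
    rw [e3] at h1 ⊢
    nlinarith

/-! ### values -/

/-- an upper bound of `GG` at a rational point -/
def upAt : Mdl → ℚ → ℚ
  | .reg b, q => (1 + q / b) ^ b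
  | .pois, q => (ExpQ.expUp 80 q : ℚ) / 2 ^ 80

lemma GG_le_upAt (M : Mdl) (q : ℚ) : GG M q ≤ upAt M q := by
  cases M with
  | reg b =>
    show (1 + (q : ℝ) / b) ^ b ≤ (((1 + q / b) ^ b : ℚ) : ℝ)
    push_cast
    exact le_rfl
  | pois =>
    show Real.exp q ≤ (((ExpQ.expUp 80 q : ℚ) / 2 ^ 80 : ℚ) : ℝ)
    have := ExpQ.exp_le_expUp 80 q
    push_cast
    exact this

/-- the bottom of the domain -/
def clip : Mdl → ℚ → ℚ
  | .reg b, q => qmax q (-(b : ℚ))
  | .pois, q => q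

lemma clip_le {M : Mdl} {q : ℚ} {E : ℝ} (h : DomE M E) (hq : (q : ℝ) ≤ E) : (clip M q : ℝ) ≤ E := by
  cases M with
  | reg b =>
    have hb : (0 : ℝ) < b := by exact_mod_cast h.1
    have h2 : (0 : ℝ) ≤ 1 + E / b := h.2
    have h3 : -(b : ℝ) ≤ E := by
      have : 0 ≤ (1 + E / b) * b := mul_nonneg h2 hb.le
      have e : (1 + E / b) * b = b + E := by field_simp
      linarith
    show ((qmax q (-(b : ℚ)) : ℚ) : ℝ) ≤ E
    unfold qmax
    split_ifs with h4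
    · push_cast; exact h3
    · exact hq
  | pois => exact hq

lemma dom_clip (M : Mdl) (hM : ∀ b, M = .reg b → 0 < b) (q : ℚ) : DomE M (clip M q) := by
  cases M with
  | reg b =>
    have hb0 := hM b rfl
    have hb : (0 : ℝ) < b := by exact_mod_cast hb0
    refine ⟨hb0, ?_⟩
    have h : (-(b : ℚ)) ≤ clip (.reg b) q := le_qmax_right _ _
    have h' : -(b : ℝ) ≤ (clip (.reg b) q : ℝ) := by exact_mod_cast h
    have e : (1 : ℝ) + (clip (.reg b) q : ℝ) / b = ((clip (.reg b) q : ℝ) + b) / b := by field_simp; ring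
    rw [e]
    exact div_nonneg (by linarith) hb.le
  | pois => trivial

/-- the line above -/
def lineUp (M : Mdl) (lo hi : ℚ) : ℚ × ℚ :=
  let l := clip M lo
  let U1 := rup 64 (upAt M l)
  let U2 := rup 64 (upAt M hi)
  let σ := rdn 40 ((U2 - U1) / (hi - l))
  (qmax (U1 - σ * l) (U2 - σ * hi), σ)

lemma lineUp_sound {M : Mdl} (hM : ∀ b, M = .reg b → 0 < b) {lo hi : ℚ} {E : ℝ} (hd : DomE M E)
    (h1 : (lo : ℝ) ≤ E) (h2 : E ≤ hi) : GG M E ≤ ((lineUp M lo hi).1 : ℝ) + ((lineUp M lo hi).2 : ℝ) * E := by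
  set l := clip M lo with hl
  have hl1 : (l : ℝ) ≤ E := clip_le hd h1
  have hdl : DomE M (l : ℝ) := dom_clip M hM lo
  set U1 := rup 64 (upAt M l) with hU1
  set U2 := rup 64 (upAt M hi) with hU2
  set σ := rdn 40 ((U2 - U1) / (hi - l)) with hσ
  have e1 : (lineUp M lo hi).1 = qmax (U1 - σ * l) (U2 - σ * hi) := rfl
  have e2 : (lineUp M lo hi).2 = σ := rfl
  rw [e1, e2]
  set c := qmax (U1 - σ * l) (U2 - σ * hi) with hc
  have hc1 : U1 - σ * l ≤ c := le_qmax_left _ _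
  have hc2 : U2 - σ * hi ≤ c := le_qmax_right _ _
  have hc1' : (U1 : ℝ) - σ * l ≤ c := by exact_mod_cast hc1
  have hc2' : (U2 : ℝ) - σ * hi ≤ c := by exact_mod_cast hc2
  have hU1' : GG M l ≤ U1 := (GG_le_upAt M l).trans (by exact_mod_cast le_rup 64 (upAt M l))
  have hU2' : GG M hi ≤ U2 := (GG_le_upAt M hi).trans (by exact_mod_cast le_rup 64 (upAt M hi))
  exact GG_chord hdl hl1 h2 (by linarith) (by linarith)

/-- the line below -/
def lineDn (M : Mdl) (lo hi : ℚ) : ℚ × ℚ :=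
  let m := rdn 14 ((lo + hi) / 2)
  match M with
  | .reg b =>
    let u := 1 + m / b
    if 0 ≤ u then (u ^ b - u ^ (b - 1) * m, u ^ (b - 1)) else (0, 0)
  | .pois =>
    if m ≤ lo + 1 then
      let g : ℚ := (ExpQ.expDn 80 m : ℚ) / 2 ^ 80
      (g * (1 - m), g)
    else (0, 0)

lemma lineDn_sound {M : Mdl} {lo hi : ℚ} {E : ℝ} (hd : DomE M E) (h1 : (lo : ℝ) ≤ E) :
    ((lineDn M lo hi).1 : ℝ) + ((lineDn M lo hi).2 : ℝ) * E ≤ GG M E := by
  cases M with
  | reg b =>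
    obtain ⟨hb0, hU⟩ := hd
    have hb : (0 : ℝ) < b := by exact_mod_cast hb0
    show ((lineDn (.reg b) lo hi).1 : ℝ) + ((lineDn (.reg b) lo hi).2 : ℝ) * E ≤ (1 + E / b) ^ b
    set m := rdn 14 ((lo + hi) / 2) with hm
    by_cases hu : 0 ≤ 1 + m / b
    · have e : lineDn (.reg b) lo hi = ((1 + m / b) ^ b - (1 + m / b) ^ (b - 1) * m, (1 + m / b) ^ (b - 1)) := by
        simp only [lineDn, ← hm]
        rw [if_pos hu]
      rw [e]
      obtain ⟨n, rfl⟩ : ∃ n, b = n + 1 := ⟨b - 1, by omega⟩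
      have hu' : (0 : ℝ) ≤ 1 + (m : ℝ) / ((n + 1 : ℕ) : ℝ) := by exact_mod_cast hu
      have ht := pow_tangent hU hu' n
      have hb' : ((n + 1 : ℕ) : ℝ) = (n : ℝ) + 1 := by push_cast; ring
      simp only [Nat.add_sub_cancel]
      push_cast
      rw [hb'] at ht
      have hn : ((n : ℝ) + 1) ≠ 0 := by positivity
      have e4 : ((n : ℝ) + 1) * (1 + (m : ℝ) / ((n : ℝ) + 1)) ^ n * (1 + E / ((n : ℝ) + 1) - (1 + (m : ℝ) / ((n : ℝ) + 1)))
          = (1 + (m : ℝ) / ((n : ℝ) + 1)) ^ n * (E - m) := by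
        field_simp
        ring
      rw [e4] at ht
      linarith
    · have e : lineDn (.reg b) lo hi = (0, 0) := by
        simp only [lineDn, ← hm]
        rw [if_neg hu]
      rw [e]
      simp only [Rat.cast_zero, zero_mul, add_zero]
      exact pow_nonneg hU _
  | pois =>
    show ((lineDn .pois lo hi).1 : ℝ) + ((lineDn .pois lo hi).2 : ℝ) * E ≤ Real.exp E
    set m := rdn 14 ((lo + hi) / 2) with hm
    by_cases hu : m ≤ lo + 1
    · have e : lineDn .pois lo hi = (((ExpQ.expDn 80 m : ℚ) / 2 ^ 80) * (1 - m), (ExpQ.expDn 80 m : ℚ) / 2 ^ 80) := by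
        simp only [lineDn, ← hm]
        rw [if_pos hu]
      rw [e]
      have hg : (((ExpQ.expDn 80 m : ℚ) / 2 ^ 80 : ℚ) : ℝ) ≤ Real.exp m := by
        have := ExpQ.expDn_le_exp 80 m
        push_cast
        exact this
      set g : ℚ := (ExpQ.expDn 80 m : ℚ) / 2 ^ 80 with hgdef
      have hu' : (m : ℝ) ≤ lo + 1 := by exact_mod_cast hu
      have h3 : 0 ≤ 1 + E - m := by linarith
      have h4 : (g : ℝ) * (1 + E - m) ≤ Real.exp m * (1 + E - m) := mul_le_mul_of_nonneg_right hg h3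
      have h5 : Real.exp m * (1 + E - m) ≤ Real.exp E := by
        have h6 := Real.add_one_le_exp (E - m)
        have h7 : Real.exp E = Real.exp m * Real.exp (E - m) := by
          rw [← Real.exp_add]; congr 1; ring
        rw [h7]
        exact mul_le_mul_of_nonneg_left (by linarith) (Real.exp_pos _).le
      push_cast
      nlinarith
    · have e : lineDn .pois lo hi = (0, 0) := by
        simp only [lineDn, ← hm]
        rw [if_neg hu]
      rw [e]
      simp only [Rat.cast_zero, zero_mul, add_zero]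
      exact (Real.exp_pos _).le

/-- the line of one term `w GG` -/
def term (M : Mdl) (w lo hi : ℚ) : ℚ × ℚ :=
  if 0 ≤ w then
    let p := lineUp M lo hi
    (w * p.1, w * p.2)
  else
    let p := lineDn M lo hi
    (w * p.1, w * p.2)

lemma term_sound {M : Mdl} (hM : ∀ b, M = .reg b → 0 < b) {w lo hi : ℚ} {E : ℝ} (hd : DomE M E)
    (h1 : (lo : ℝ) ≤ E) (h2 : E ≤ hi) :
    (w : ℝ) * GG M E ≤ ((term M w lo hi).1 : ℝ) + ((term M w lo hi).2 : ℝ) * E := by
  unfold term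
  split_ifs with hw
  · have hw' : (0 : ℝ) ≤ w := by exact_mod_cast hw
    have := mul_le_mul_of_nonneg_left (lineUp_sound hM hd h1 h2) hw'
    simp only
    push_cast
    linarith
  · have hw' : (w : ℝ) ≤ 0 := by exact_mod_cast (not_le.1 hw).le
    have := mul_le_mul_of_nonpos_left (lineDn_sound (hi := hi) hd h1) hw'
    simp only
    push_cast
    linarith

/-! ### vectors and boxes -/

noncomputable def dot : List ℚ → List ℝ → ℝ
  | a :: p, x :: q => (a : ℝ) * x + dot p q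
  | _, _ => 0

@[simp] lemma dot_nil_left (v : List ℝ) : dot [] v = 0 := rfl
@[simp] lemma dot_nil_right (k : List ℚ) : dot k [] = 0 := by cases k <;> rfl
@[simp] lemma dot_cons (a : ℚ) (p : List ℚ) (x : ℝ) (q : List ℝ) : dot (a :: p) (x :: q) = (a : ℝ) * x + dot p q := rfl

/-- `v` in the box -/
def InBox : List (ℚ × ℚ) → List ℝ → Prop := List.Forall₂ (fun b x => (b.1 : ℝ) ≤ x ∧ x ≤ b.2)

/-- range of a linear function on a box -/
def rngK : List ℚ → List (ℚ × ℚ) → ℚ × ℚ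
  | a :: p, b :: q =>
    let r := rngK p q
    if 0 ≤ a then (r.1 + a * b.1, r.2 + a * b.2) else (r.1 + a * b.2, r.2 + a * b.1)
  | _, _ => (0, 0)

lemma rngK_sound (k : List ℚ) {B : List (ℚ × ℚ)} {v : List ℝ} (h : InBox B v) :
    ((rngK k B).1 : ℝ) ≤ dot k v ∧ dot k v ≤ ((rngK k B).2 : ℝ) := by
  induction h generalizing k with
  | nil => cases k <;> simp [rngK]
  | @cons b x B v hb _ ih =>
    cases k with
    | nil => simp [rngK]
    | cons a p =>
      obtain ⟨i1, i2⟩ := ih p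
      simp only [rngK, dot_cons]
      split_ifs with ha
      · have ha' : (0 : ℝ) ≤ a := by exact_mod_cast ha
        have h1 := mul_le_mul_of_nonneg_left hb.1 ha'
        have h2 := mul_le_mul_of_nonneg_left hb.2 ha'
        push_cast
        constructor <;> linarith
      · have ha' : (a : ℝ) ≤ 0 := by exact_mod_cast (not_le.1 ha).le
        have h1 := mul_le_mul_of_nonpos_left hb.1 ha'
        have h2 := mul_le_mul_of_nonpos_left hb.2 ha'
        push_cast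
        constructor <;> linarith

/-- `σ k + c` -/
def addS (σ : ℚ) : List ℚ → List ℚ → List ℚ
  | [], c => c
  | a :: k, [] => (σ * a) :: addS σ k []
  | a :: k, e :: c => (σ * a + e) :: addS σ k c

lemma dot_addS (σ : ℚ) (k c : List ℚ) (v : List ℝ) : dot (addS σ k c) v = (σ : ℝ) * dot k v + dot c v := by
  induction k generalizing c v with
  | nil => simp [addS]
  | cons a k ih =>
    cases v with
    | nil => simp
    | cons x v =>
      cases c with
      | nil => simp [addS, ih]; ring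
      | cons e c =>
        simp only [addS, dot_cons, ih]
        push_cast; ring

/-- `∑ w GG (k · v)` -/
noncomputable def sumG (M : Mdl) : List (ℚ × List ℚ) → List ℝ → ℝ
  | [], _ => 0
  | t :: ts, v => (t.1 : ℝ) * GG M (dot t.2 v) + sumG M ts v

/-- the linear bound -/
def upper (M : Mdl) (B : List (ℚ × ℚ)) : List (ℚ × List ℚ) → ℚ × List ℚ
  | [] => (0, [])
  | t :: ts =>
    let u := upper M B ts
    let r := rngK t.2 B
    let T := term M t.1 (rdn 24 r.1) (rup 24 r.2)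
    (u.1 + T.1, addS T.2 t.2 u.2)

lemma upper_sound {M : Mdl} (hM : ∀ b, M = .reg b → 0 < b) {B : List (ℚ × ℚ)} {v : List ℝ} (hv : InBox B v)
    (ts : List (ℚ × List ℚ)) (hd : ∀ t ∈ ts, DomE M (dot t.2 v)) :
    sumG M ts v ≤ ((upper M B ts).1 : ℝ) + dot (upper M B ts).2 v := by
  induction ts with
  | nil => simp [sumG, upper]
  | cons t ts ih =>
    have ih' := ih (fun x hx => hd x (List.mem_cons_of_mem _ hx))
    obtain ⟨r1, r2⟩ := rngK_sound t.2 hv
    have h1 : ((rdn 24 (rngK t.2 B).1 : ℚ) : ℝ) ≤ dot t.2 v :=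
      le_trans (by exact_mod_cast rdn_le 24 _) r1
    have h2 : dot t.2 v ≤ ((rup 24 (rngK t.2 B).2 : ℚ) : ℝ) :=
      le_trans r2 (by exact_mod_cast le_rup 24 _)
    have ht := term_sound (w := t.1) hM (hd t List.mem_cons_self) h1 h2
    simp only [sumG, upper, dot_addS]
    push_cast
    linarith

/-- sup of the linear bound on the box -/
def supB (B : List (ℚ × ℚ)) (u : ℚ × List ℚ) : ℚ := u.1 + (rngK u.2 B).2

lemma le_supB {B : List (ℚ × ℚ)} {v : List ℝ} (hv : InBox B v) (u : ℚ × List ℚ) :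
    (u.1 : ℝ) + dot u.2 v ≤ (supB B u : ℝ) := by
  have := (rngK_sound u.2 hv).2
  simp only [supB]
  push_cast
  linarith


/-! ### the data of a cell: integers, the value of `n` is `n / 2 ^ 30` -/

def qs (n : ℤ) : ℚ := Rat.divInt n 1073741824
def toUP (l : List ℤ) : UP := l.map qs

structure FormD where
  P1 : List ℤ
  G1 : List ℤ
  P2 : List ℤ
  G2 : List ℤ

structure RoundD where
  fR : FormD
  fL : FormD
  fQ : FormD
  ρ1 : ℤ
  ρ2 : ℤ
  r2 : ℤ

structure CellD where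
  s1 : ℤ
  s2 : ℤ
  rounds : List RoundD
  finP : List ℤ
  finG : List ℤ

def parOf (f : FormD) : Par := ⟨toUP f.P1, toUP f.G1, toUP f.P2, toUP f.G2⟩

/-- the table of a degree: weights and linear forms of the terms -/
structure Tbl where
  terms : Fm → List (ℚ × List ℚ)
  lenOK : Fm → Bool

/-- the moment box -/
structure MB where
  s1 : ℚ
  s2 : ℚ
  ρ1 : ℚ
  ρ2 : ℚ
  r1 : ℚ
  r2 : ℚ

/-- the box of the coordinates `(s, μ ρ, μ² r, μ³ τ, μ⁴ A3, μ⁴ C2, μ⁵ A2C)` -/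
def vbox (μ1 μ2 : ℚ) (B : MB) : List (ℚ × ℚ) :=
  [(B.s1, B.s2),
   (rdn 30 (if 0 ≤ B.ρ1 then μ1 * B.ρ1 else μ2 * B.ρ1), rup 30 (if 0 ≤ B.ρ2 then μ2 * B.ρ2 else μ1 * B.ρ2)),
   (rdn 30 (μ1 ^ 2 * B.r1), rup 30 (μ2 ^ 2 * B.r2)),
   (rdn 30 (-(μ2 ^ 3 * B.r2) / 2), rup 30 (μ2 ^ 3 * B.r2)),
   (0, rup 30 (μ2 ^ 4 * B.r2)),
   (0, rup 30 (μ2 ^ 4 * B.r2)),
   (rdn 30 (-(μ2 ^ 5 * B.r2) / 2), rup 30 (μ2 ^ 5 * B.r2))]

def supOf (T : Tbl) (M : Mdl) (Bx : List (ℚ × ℚ)) (F : Fm) : ℚ := supB Bx (upper M Bx (T.terms F))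

/-- one round of enclosure -/
def stepRound (T : Tbl) (M : Mdl) (μ1 μ2 : ℚ) (B : MB) (R : RoundD) : Option MB :=
  let Bx := vbox μ1 μ2 B
  let pR := parOf R.fR
  let pL := parOf R.fL
  let pQ := parOf R.fQ
  if okR pR && okL pL && okQ pQ && T.lenOK (fmR pR) && T.lenOK (fmL pL) && T.lenOK (fmQ pQ) &&
      (decide (supOf T M Bx (fmR pR) ≤ qs R.ρ2) || decide (B.ρ2 ≤ qs R.ρ2)) &&
      (decide (supOf T M Bx (fmL pL) ≤ -qs R.ρ1) || decide (qs R.ρ1 ≤ B.ρ1)) &&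
      (decide (supOf T M Bx (fmQ pQ) ≤ qs R.r2) || decide (B.r2 ≤ qs R.r2)) then
    some ⟨B.s1, B.s2, qs R.ρ1, qs R.ρ2, B.r1, qs R.r2⟩
  else none

def runRounds (T : Tbl) (M : Mdl) (μ1 μ2 : ℚ) : MB → List RoundD → Option MB
  | B, [] => some B
  | B, R :: Rs =>
    match stepRound T M μ1 μ2 B R with
    | some B' => runRounds T M μ1 μ2 B' Rs
    | none => none

/-- the start of the rounds; `r0` is a known bound of `r` for large levels (`r0 = 1` is always true) -/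
def startBox (s1 s2 r0 : ℚ) : MB := ⟨s1, s2, -s2 / 2, s2, s1 ^ 2, if s2 ≤ r0 then s2 else r0⟩

/-- `s` form with `G` -/
def oneMinusPG (P G : UP) : UP := upAdd [1] (upScale (-1) (sqG P G))
def fmSG (P G : UP) : Fm := ⟨upZ, upScale (-1) (upTail (oneMinusPG P G)), [], []⟩
def okSG (P G : UP) : Bool := nnQ G && decide (upHead (oneMinusPG P G) = 0)

theorem bound_SG {P G : UP} (h : okSG P G = true) {ℓ : Fin 3 → ℝ} (hℓ : ∀ i, 0 ≤ ℓ i) :
    Kz 3 (aFn 3) ℓ ≤ evF (fmSG P G) ℓ := by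
  simp only [okSG, Bool.and_eq_true, decide_eq_true_eq] at h
  obtain ⟨hG, h0⟩ := h
  have hQ : ∀ z : ℝ, 0 < z → z * ev (upTail (oneMinusPG P G)) z ≤ 1 := fun z hz => by
    have e := ev_shift_zero h0 z
    have e2 : ev (oneMinusPG P G) z = 1 - ev (sqG P G) z := by
      simp [oneMinusPG, ev_add, ev_scale]; ring
    have := sqG_nonneg (P := P) hG hz.le
    linarith
  have := Kz_aFn_le (fun z => ev (upTail (oneMinusPG P G)) z) hQ hℓ
  refine this.trans (le_of_eq ?_)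
  simp only [evF, fmSG, ev_scale, ev_upZ, ev_nil]
  push_cast; ring

/-- the test of one cell -/
def checkCell (T : Tbl) (M : Mdl) (μ1 μ2 r0 : ℚ) (c : CellD) : Bool :=
  decide (0 ≤ qs c.s1) &&
  match runRounds T M μ1 μ2 (startBox (qs c.s1) (qs c.s2) r0) c.rounds with
  | none => false
  | some B =>
    let Bx := vbox μ1 μ2 B
    let P := toUP c.finP
    let G := toUP c.finG
    let u := upper M Bx (T.terms (fmSG P G))
    okSG P G && T.lenOK (fmSG P G) && decide (supB Bx (u.1, addS (-1) [1] u.2) < 0)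

/-! ### the sequence -/

/-- what the model gives -/
structure SeqFacts (T : Tbl) (M : Mdl) (μ : ℝ) (s ρ r τ a3 c2 ac : ℕ → ℝ) : Prop where
  hM : ∀ b, M = .reg b → 0 < b
  r_anti : Antitone r
  ρ_le : ∀ n, ρ n ≤ s n
  le_ρ : ∀ n, -(s n) / 2 ≤ ρ n
  r_le : ∀ n, r n ≤ s n
  le_r : ∀ n, s n ^ 2 ≤ r n
  τ_le : ∀ n, τ n ≤ r n
  le_τ : ∀ n, -(r n) / 2 ≤ τ n
  a3_nn : ∀ n, 0 ≤ a3 n
  a3_le : ∀ n, a3 n ≤ r n
  c2_nn : ∀ n, 0 ≤ c2 n
  c2_le : ∀ n, c2 n ≤ a3 n
  ac_le : ∀ n, ac n ≤ a3 n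
  le_ac : ∀ n, -(a3 n) / 2 ≤ ac n
  dom : ∀ (F : Fm) (n : ℕ), ∀ t ∈ T.terms F, DomE M (dot t.2
    [s n, μ * ρ n, μ ^ 2 * r n, μ ^ 3 * τ n, μ ^ 4 * a3 n, μ ^ 4 * c2 n, μ ^ 5 * ac n])
  stepS : ∀ F : Fm, T.lenOK F = true → (∀ ℓ : Fin 3 → ℝ, (∀ i, 0 ≤ ℓ i) → Kz 3 (aFn 3) ℓ ≤ evF F ℓ) → ∀ n,
    s (n + 1) ≤ sumG M (T.terms F) [s n, μ * ρ n, μ ^ 2 * r n, μ ^ 3 * τ n, μ ^ 4 * a3 n, μ ^ 4 * c2 n, μ ^ 5 * ac n]
  stepR : ∀ F : Fm, T.lenOK F = true → (∀ ℓ : Fin 3 → ℝ, (∀ i, 0 ≤ ℓ i) → Kz 3 cFn ℓ ≤ evF F ℓ) → ∀ n,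
    ρ (n + 1) ≤ sumG M (T.terms F) [s n, μ * ρ n, μ ^ 2 * r n, μ ^ 3 * τ n, μ ^ 4 * a3 n, μ ^ 4 * c2 n, μ ^ 5 * ac n]
  stepL : ∀ F : Fm, T.lenOK F = true → (∀ ℓ : Fin 3 → ℝ, (∀ i, 0 ≤ ℓ i) → Kz 3 (fun x => - cFn x) ℓ ≤ evF F ℓ) → ∀ n,
    - ρ (n + 1) ≤ sumG M (T.terms F) [s n, μ * ρ n, μ ^ 2 * r n, μ ^ 3 * τ n, μ ^ 4 * a3 n, μ ^ 4 * c2 n, μ ^ 5 * ac n]
  stepQ : ∀ F : Fm, T.lenOK F = true → (∀ ℓ : Fin 3 → ℝ, (∀ i, 0 ≤ ℓ i) → Kz 3 (fun x => aFn 3 x ^ 2) ℓ ≤ evF F ℓ) → ∀ n,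
    r (n + 1) ≤ sumG M (T.terms F) [s n, μ * ρ n, μ ^ 2 * r n, μ ^ 3 * τ n, μ ^ 4 * a3 n, μ ^ 4 * c2 n, μ ^ 5 * ac n]

section seq
variable {T : Tbl} {M : Mdl} {μ : ℝ} {s ρ r τ a3 c2 ac : ℕ → ℝ} {μ1 μ2 : ℚ}

/-- the moments in the box -/
def Holds (s ρ r : ℕ → ℝ) (B : MB) (n : ℕ) : Prop :=
  (B.s1 : ℝ) ≤ s n ∧ s n ≤ B.s2 ∧ (B.ρ1 : ℝ) ≤ ρ n ∧ ρ n ≤ B.ρ2 ∧ (B.r1 : ℝ) ≤ r n ∧ r n ≤ B.r2

lemma inBox_vbox (h : SeqFacts T M μ s ρ r τ a3 c2 ac) (h1 : (μ1 : ℝ) ≤ μ) (h2 : μ ≤ μ2) (h0 : (0 : ℝ) ≤ μ1)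
    {B : MB} {n : ℕ} (hB : Holds s ρ r B n) :
    InBox (vbox μ1 μ2 B) [s n, μ * ρ n, μ ^ 2 * r n, μ ^ 3 * τ n, μ ^ 4 * a3 n, μ ^ 4 * c2 n, μ ^ 5 * ac n] := by
  obtain ⟨hs1, hs2, hρ1, hρ2, hr1, hr2⟩ := hB
  have hμ : 0 ≤ μ := h0.trans h1
  have hμ2 : (0 : ℝ) ≤ μ2 := hμ.trans h2
  have hr0 : 0 ≤ r n := (sq_nonneg _).trans (h.le_r n)
  have hrr : r n ≤ B.r2 := hr2
  have hpow : ∀ k : ℕ, μ ^ k ≤ (μ2 : ℝ) ^ k := fun k => pow_le_pow_left₀ hμ h2 k
  have hmul : ∀ (k : ℕ) {t : ℝ}, t ≤ r n → μ ^ k * t ≤ (μ2 : ℝ) ^ k * B.r2 := fun k t ht => by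
    have h3 := mul_le_mul_of_nonneg_left (ht.trans hr2) (pow_nonneg hμ k)
    have h4 := mul_le_mul_of_nonneg_right (hpow k) (hr0.trans hr2)
    linarith
  have hmul' : ∀ (k : ℕ) {t : ℝ}, -(r n) / 2 ≤ t → -((μ2 : ℝ) ^ k * B.r2) / 2 ≤ μ ^ k * t := fun k t ht => by
    have h3 := hmul k (le_refl (r n))
    have h4 := mul_le_mul_of_nonneg_left ht (pow_nonneg hμ k)
    have h5 : μ ^ k * (-(r n) / 2) = -(μ ^ k * r n) / 2 := by ring
    have h6 : μ ^ k * r n ≤ (μ2 : ℝ) ^ k * B.r2 := h3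
    linarith
  have hrd : ∀ (k : ℕ) (q : ℚ), ((rdn k q : ℚ) : ℝ) ≤ q := fun k q => by exact_mod_cast rdn_le k q
  have hru : ∀ (k : ℕ) (q : ℚ), (q : ℝ) ≤ ((rup k q : ℚ) : ℝ) := fun k q => by exact_mod_cast le_rup k q
  refine List.Forall₂.cons ⟨hs1, hs2⟩ (List.Forall₂.cons ⟨?_, ?_⟩ (List.Forall₂.cons ⟨?_, ?_⟩
    (List.Forall₂.cons ⟨?_, ?_⟩ (List.Forall₂.cons ⟨?_, ?_⟩ (List.Forall₂.cons ⟨?_, ?_⟩
    (List.Forall₂.cons ⟨?_, ?_⟩ List.Forall₂.nil))))))
  · refine (hrd 30 _).trans ?_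
    split_ifs with hc
    · have hc' : (0 : ℝ) ≤ B.ρ1 := by exact_mod_cast hc
      push_cast
      exact mul_le_mul h1 hρ1 hc' hμ
    · have hc' : (B.ρ1 : ℝ) ≤ 0 := by exact_mod_cast (not_le.1 hc).le
      push_cast
      have h3 := mul_le_mul_of_nonneg_left hρ1 hμ
      have h4 := mul_le_mul_of_nonpos_right h2 hc'
      linarith
  · refine le_trans ?_ (hru 30 _)
    split_ifs with hc
    · have hc' : (0 : ℝ) ≤ B.ρ2 := by exact_mod_cast hc
      push_cast
      have h3 := mul_le_mul_of_nonneg_left hρ2 hμ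
      have h4 := mul_le_mul_of_nonneg_right h2 hc'
      linarith
    · have hc' : (B.ρ2 : ℝ) ≤ 0 := by exact_mod_cast (not_le.1 hc).le
      push_cast
      have h3 := mul_le_mul_of_nonneg_left hρ2 hμ
      have h4 := mul_le_mul_of_nonpos_right h1 hc'
      linarith
  · refine (hrd 30 _).trans ?_
    push_cast
    have h3 : (μ1 : ℝ) ^ 2 ≤ μ ^ 2 := pow_le_pow_left₀ h0 h1 2
    have h4 := mul_le_mul_of_nonneg_right h3 hr0
    have h5 := mul_le_mul_of_nonneg_left hr1 (sq_nonneg (μ1 : ℝ))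
    linarith
  · refine le_trans ?_ (hru 30 _)
    push_cast
    exact hmul 2 le_rfl
  · refine (hrd 30 _).trans ?_
    push_cast
    exact hmul' 3 (h.le_τ n)
  · refine le_trans ?_ (hru 30 _)
    push_cast
    exact hmul 3 (h.τ_le n)
  · have := mul_nonneg (pow_nonneg hμ 4) (h.a3_nn n)
    simpa using this
  · refine le_trans ?_ (hru 30 _)
    push_cast
    exact hmul 4 (h.a3_le n)
  · have := mul_nonneg (pow_nonneg hμ 4) (h.c2_nn n)
    simpa using this
  · refine le_trans ?_ (hru 30 _)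
    push_cast
    exact hmul 4 ((h.c2_le n).trans (h.a3_le n))
  · refine (hrd 30 _).trans ?_
    push_cast
    refine hmul' 5 ?_
    have := h.le_ac n
    have := h.a3_le n
    linarith
  · refine le_trans ?_ (hru 30 _)
    push_cast
    exact hmul 5 ((h.ac_le n).trans (h.a3_le n))


lemma sumG_le_sup (h : SeqFacts T M μ s ρ r τ a3 c2 ac) {Bx : List (ℚ × ℚ)} {n : ℕ}
    (hv : InBox Bx [s n, μ * ρ n, μ ^ 2 * r n, μ ^ 3 * τ n, μ ^ 4 * a3 n, μ ^ 4 * c2 n, μ ^ 5 * ac n]) (F : Fm) :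
    sumG M (T.terms F) [s n, μ * ρ n, μ ^ 2 * r n, μ ^ 3 * τ n, μ ^ 4 * a3 n, μ ^ 4 * c2 n, μ ^ 5 * ac n]
      ≤ (supOf T M Bx F : ℝ) :=
  (upper_sound h.hM hv (T.terms F) (h.dom F n)).trans (le_supB hv _)

lemma stepRound_sound (h : SeqFacts T M μ s ρ r τ a3 c2 ac) (h1 : (μ1 : ℝ) ≤ μ) (h2 : μ ≤ μ2) (h0 : (0 : ℝ) ≤ μ1)
    {B B' : MB} {R : RoundD} (hs : stepRound T M μ1 μ2 B R = some B') {N : ℕ}
    (hH : ∀ n, N ≤ n → Holds s ρ r B n) : ∀ n, N + 1 ≤ n → Holds s ρ r B' n := by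
  simp only [stepRound] at hs
  split_ifs at hs with hc
  simp only [Bool.and_eq_true, Bool.or_eq_true, decide_eq_true_eq] at hc
  obtain ⟨⟨⟨⟨⟨⟨⟨⟨okr, okl⟩, okq⟩, lr⟩, ll⟩, lq⟩, sr⟩, sl⟩, sq⟩ := hc
  obtain rfl : (⟨B.s1, B.s2, qs R.ρ1, qs R.ρ2, B.r1, qs R.r2⟩ : MB) = B' := Option.some.inj hs
  intro n hn
  obtain ⟨m, rfl⟩ : ∃ m, n = m + 1 := ⟨n - 1, by omega⟩
  have hm : N ≤ m := by omega
  have hb := inBox_vbox (τ := τ) (a3 := a3) (c2 := c2) (ac := ac) h h1 h2 h0 (hH m hm)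
  obtain ⟨hs1, hs2, _, _, hr1, _⟩ := hH (m + 1) (by omega)
  obtain ⟨_, _, hρ1', hρ2', _, _⟩ := hH (m + 1) (by omega)
  refine ⟨hs1, hs2, ?_, ?_, hr1, ?_⟩
  · rcases sl with sl | sl
    · have e := (h.stepL _ ll (fun ℓ hℓ => bound_L okl hℓ) m).trans (sumG_le_sup h hb _)
      have e2 : ((supOf T M (vbox μ1 μ2 B) (fmL (parOf R.fL)) : ℚ) : ℝ) ≤ ((-qs R.ρ1 : ℚ) : ℝ) := by exact_mod_cast sl
      push_cast at e2
      show (qs R.ρ1 : ℝ) ≤ ρ (m + 1)
      linarith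
    · have e3 : (qs R.ρ1 : ℝ) ≤ ((B.ρ1 : ℚ) : ℝ) := by exact_mod_cast sl
      exact e3.trans hρ1'
  · rcases sr with sr | sr
    · have e := (h.stepR _ lr (fun ℓ hℓ => bound_R okr hℓ) m).trans (sumG_le_sup h hb _)
      have e2 : ((supOf T M (vbox μ1 μ2 B) (fmR (parOf R.fR)) : ℚ) : ℝ) ≤ (qs R.ρ2 : ℝ) := by exact_mod_cast sr
      exact e.trans e2
    · have e3 : ((B.ρ2 : ℚ) : ℝ) ≤ (qs R.ρ2 : ℝ) := by exact_mod_cast sr
      exact hρ2'.trans e3
  · rcases sq with sq | sq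
    · have e := (h.stepQ _ lq (fun ℓ hℓ => bound_Q okq hℓ) m).trans (sumG_le_sup h hb _)
      have e2 : ((supOf T M (vbox μ1 μ2 B) (fmQ (parOf R.fQ)) : ℚ) : ℝ) ≤ (qs R.r2 : ℝ) := by exact_mod_cast sq
      exact e.trans e2
    · have e1 : r (m + 1) ≤ r m := h.r_anti (Nat.le_succ m)
      have e2 : r m ≤ B.r2 := (hH m hm).2.2.2.2.2
      have e3 : ((B.r2 : ℚ) : ℝ) ≤ (qs R.r2 : ℝ) := by exact_mod_cast sq
      exact e1.trans (e2.trans e3)

lemma runRounds_sound (h : SeqFacts T M μ s ρ r τ a3 c2 ac) (h1 : (μ1 : ℝ) ≤ μ) (h2 : μ ≤ μ2) (h0 : (0 : ℝ) ≤ μ1)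
    (Rs : List RoundD) {B B' : MB} (hs : runRounds T M μ1 μ2 B Rs = some B') {N : ℕ}
    (hH : ∀ n, N ≤ n → Holds s ρ r B n) : ∃ N', ∀ n, N' ≤ n → Holds s ρ r B' n := by
  induction Rs generalizing B N with
  | nil =>
    obtain rfl : B = B' := Option.some.inj hs
    exact ⟨N, hH⟩
  | cons R Rs ih =>
    simp only [runRounds] at hs
    cases hc : stepRound T M μ1 μ2 B R with
    | none => rw [hc] at hs; simp at hs
    | some B1 =>
      rw [hc] at hs
      exact ih hs (stepRound_sound h h1 h2 h0 hc hH)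

/-- the test implies that the cell cannot hold the sequence forever, if `r ≤ r0` for large levels -/
theorem cell_false (h : SeqFacts T M μ s ρ r τ a3 c2 ac) (h1 : (μ1 : ℝ) ≤ μ) (h2 : μ ≤ μ2) (h0 : (0 : ℝ) ≤ μ1)
    {r0 : ℚ} (hr0 : ∃ N0, ∀ n, N0 ≤ n → r n ≤ r0)
    {c : CellD} (hc : checkCell T M μ1 μ2 r0 c = true) : CellFalse s (qs c.s1) (qs c.s2) := by
  intro N hN
  obtain ⟨N0, hN0⟩ := hr0
  simp only [checkCell, Bool.and_eq_true, decide_eq_true_eq] at hc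
  obtain ⟨hs0, hc⟩ := hc
  have hs0' : (0 : ℝ) ≤ qs c.s1 := by exact_mod_cast hs0
  cases hr : runRounds T M μ1 μ2 (startBox (qs c.s1) (qs c.s2) r0) c.rounds with
  | none => rw [hr] at hc; simp at hc
  | some B =>
    rw [hr] at hc
    simp only [Bool.and_eq_true, decide_eq_true_eq] at hc
    obtain ⟨⟨oks, lens⟩, hfin⟩ := hc
    have hH0 : ∀ n, max N N0 ≤ n → Holds s ρ r (startBox (qs c.s1) (qs c.s2) r0) n := fun n hn => by
      obtain ⟨a, b⟩ := hN n ((le_max_left _ _).trans hn)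
      have hρ1 := h.le_ρ n
      have hρ2 := h.ρ_le n
      have hr1 := h.le_r n
      have hr2 := h.r_le n
      have hr3 := hN0 n ((le_max_right _ _).trans hn)
      refine ⟨a, b.le, ?_, ?_, ?_, ?_⟩
      · show (((-qs c.s2 / 2 : ℚ)) : ℝ) ≤ ρ n
        push_cast
        linarith
      · exact hρ2.trans b.le
      · show (((qs c.s1 ^ 2 : ℚ)) : ℝ) ≤ r n
        push_cast
        have : (qs c.s1 : ℝ) ^ 2 ≤ s n ^ 2 := pow_le_pow_left₀ hs0' a 2
        linarith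
      · show r n ≤ (((if qs c.s2 ≤ r0 then qs c.s2 else r0 : ℚ)) : ℝ)
        split_ifs
        · exact hr2.trans b.le
        · exact hr3
    obtain ⟨N', hN'⟩ := runRounds_sound h h1 h2 h0 c.rounds hr hH0
    set P := toUP c.finP with hP
    set G := toUP c.finG with hG
    set Bx := vbox μ1 μ2 B with hBx
    set u := upper M Bx (T.terms (fmSG P G)) with hu
    set κ : ℚ := supB Bx (u.1, addS (-1) [1] u.2) with hκ
    have hκ' : (κ : ℝ) < 0 := by exact_mod_cast hfin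
    have hstep : ∀ n, N' ≤ n → s (n + 1) ≤ s n + κ := fun n hn => by
      have hb := inBox_vbox (τ := τ) (a3 := a3) (c2 := c2) (ac := ac) h h1 h2 h0 (hN' n hn)
      have e1 := h.stepS _ lens (fun ℓ hℓ => bound_SG oks hℓ) n
      have e2 := upper_sound h.hM hb (T.terms (fmSG P G)) (h.dom _ n)
      have e3 := le_supB hb (u.1, addS (-1) [1] u.2)
      simp only [dot_addS] at e3
      have e4 : dot [1] [s n, μ * ρ n, μ ^ 2 * r n, μ ^ 3 * τ n, μ ^ 4 * a3 n, μ ^ 4 * c2 n, μ ^ 5 * ac n] = s n := by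
        simp
      rw [e4] at e3
      push_cast at e3
      rw [← hu] at e2
      linarith
    have hk : ∀ k : ℕ, s (N' + k) ≤ s N' + k * κ := fun k => by
      induction k with
      | zero => simp
      | succ k ih =>
        have := hstep (N' + k) (by omega)
        rw [← add_assoc]
        push_cast
        nlinarith
    obtain ⟨k0, hk2⟩ := exists_nat_gt ((s N' - qs c.s1) / (-(κ : ℝ)))
    have hneg : 0 < -(κ : ℝ) := by linarith
    rw [div_lt_iff₀ hneg] at hk2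
    have hkk : (k0 : ℝ) ≤ ((max k0 N : ℕ) : ℝ) := by exact_mod_cast le_max_left _ _
    have h5 := hk (max k0 N)
    have h6 := (hN (N' + max k0 N) (by have := le_max_right k0 N; omega)).1
    have h7 : (k0 : ℝ) * -(κ : ℝ) ≤ ((max k0 N : ℕ) : ℝ) * -(κ : ℝ) := mul_le_mul_of_nonneg_right hkk hneg.le
    linarith

/-- all cells of a list pass a test, one proof per cell -/
inductive AllOK (p : CellD → Prop) : List CellD → Prop
  | nil : AllOK p []
  | cons {c : CellD} {cs : List CellD} : p c → AllOK p cs → AllOK p (c :: cs)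

/-- the breakpoints of a chain: `t` the current lower breakpoint, the result the last upper breakpoint -/
def chainAdj : ℤ → List CellD → Option ℤ
  | t, [] => some t
  | t, c :: cs => if c.s1 = t then chainAdj c.s2 cs else none

/-- the chain: going below the top implies going below the bottom -/
theorem chain_exit (h : SeqFacts T M μ s ρ r τ a3 c2 ac) (h1 : (μ1 : ℝ) ≤ μ) (h2 : μ ≤ μ2) (h0 : (0 : ℝ) ≤ μ1)
    (hanti : Antitone s) {r0 : ℚ} (hr0 : ∃ N0, ∀ n, N0 ≤ n → r n ≤ r0) {cells : List CellD} {t t' : ℤ}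
    (hadj : chainAdj t cells = some t') (hall : AllOK (fun c => checkCell T M μ1 μ2 r0 c = true) cells)
    (hx : ∃ n, s n < qs t') : ∃ n, s n < qs t := by
  induction hall generalizing t with
  | nil =>
    obtain rfl : t = t' := Option.some.inj hadj
    exact hx
  | @cons c cs hc _ ih =>
    simp only [chainAdj] at hadj
    split_ifs at hadj with hcc
    subst hcc
    obtain ⟨n, hn⟩ := ih hadj
    by_contra hcon
    simp only [not_exists, not_lt] at hcon
    exact cell_false h h1 h2 h0 hr0 hc n fun k hk => ⟨hcon k, (hanti hk).trans_lt hn⟩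

end seq

/-! ### degree 5: the table, and the two tree models -/

/-- the coefficients of `(s, x, y, z)` -/
def toL (k : CloStep.Kq) : List ℚ := [k.1, -k.2.1, k.2.2.1, -k.2.2.2]

def kE5 : List (List ℚ) := CloStep.kL5.map toL

/-- degree 5 -/
def tb5 : Tbl := ⟨fun F => (wF F).zip kE5, okLen⟩

lemma dot_toL (k : CloStep.Kq) (a b c d : ℝ) (v : List ℝ) : dot (toL k) (a :: b :: c :: d :: v) = EE k a b c d := by
  simp only [toL, dot_cons, dot_nil_left, EE]
  push_cast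
  ring

lemma sumG_zip (m : Mdl) (a b c d : ℝ) (v : List ℝ) (w : List ℚ) (kl : List CloStep.Kq) :
    sumG m (w.zip (kl.map toL)) (a :: b :: c :: d :: v) =
      CloStep.dotW w (kl.map fun k => GG m (EE k a b c d)) := by
  induction w generalizing kl with
  | nil => simp [sumG, CloStep.dotW]
  | cons x w ih =>
    cases kl with
    | nil => simp [sumG, CloStep.dotW]
    | cons k kl =>
      simp only [List.map_cons, List.zip_cons_cons, sumG, dot_toL, ih, CloStep.dotW]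

lemma MM_nonneg (H : SLaw 3) (e0 e1 e2 : ℕ) : 0 ≤ MM H e0 e1 e2 := by
  have h3 : 0 < 3 := by norm_num
  have := H.Φ_mono h3 (SLaw.BddS.const 0) (BddS_mono3 e0 e1 e2) (fun x hx => by
    have h0 := hx.1 0
    have h1 := hx.1 1
    have h2 := hx.1 2
    unfold mono3
    positivity)
  rwa [H.Φ_const h3] at this

/-- the exponents of the regular tree are in the domain -/
lemma dom_reg {b : ℕ} (hb : 0 < b) {lam : ℝ} (hbl : (b : ℝ) * lam ^ 2 = 1)
    (hch : ∀ i j : Fin 3, 0 ≤ Crest.ProbabilityR.Broadcast.channel 3 lam i j) (M : SLaw 3)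
    (k : CloStep.Kq) (hk : k ∈ CloStep.kL5) : DomE (.reg b) (EEm (-lam) k M) := by
  refine ⟨hb, ?_⟩
  set H := M.tilt lam hch with hH
  have hb' : (b : ℝ) ≠ 0 := by exact_mod_cast hb.ne'
  have e : lam ^ 2 = 1 / b := by field_simp; linarith
  have e1 : EEm (-lam) k M / b = CloStep.LqT k lam M := by
    rw [LqT_eq, e]; ring
  have e2 : CloStep.LqT k lam M = CloStep.Lq k (momS H) (momC H) (momR H) (momT H) := by
    rw [hH, momS_tilt M lam hch, momC_tilt M lam hch, momR_tilt M lam hch, momT_tilt M lam hch]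
    rfl
  rw [e1, e2]
  have hmem : CloStep.Lq k (momS H) (momC H) (momR H) (momT H) ∈
      CloStep.kL5.map fun k => (fun x : ℝ => x) (CloStep.Lq k (momS H) (momC H) (momR H) (momT H)) :=
    List.mem_map.2 ⟨k, hk, rfl⟩
  rw [← CloStep.alphas5_map H (fun x => x)] at hmem
  obtain ⟨a, _, ha⟩ := List.mem_map.1 hmem
  have := MM_nonneg H a.1 a.2.1 a.2.2
  linarith

section laws
variable {m : Mdl} {mu : ℝ} {M : ℕ → SLaw 3}

lemma seqFacts_of (hS : StepBound m mu M) (hM : ∀ b, m = .reg b → 0 < b) (hanti : Antitone fun n => momR (M n))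
    (hdom : ∀ n, ∀ k ∈ CloStep.kL5, DomE m (EEm mu k (M n))) :
    SeqFacts tb5 m mu (fun n => momS (M n)) (fun n => momC (M n)) (fun n => momR (M n)) (fun n => momT (M n))
      (fun n => momA3 (M n)) (fun n => momC2 (M n)) (fun n => momA2C (M n)) := by
  have hV : ∀ (F : Fm) (n : ℕ), sumG m (tb5.terms F)
      [momS (M n), mu * momC (M n), mu ^ 2 * momR (M n), mu ^ 3 * momT (M n), mu ^ 4 * momA3 (M n),
        mu ^ 4 * momC2 (M n), mu ^ 5 * momA2C (M n)] =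
      CloStep.dotW (wF F) (CloStep.kL5.map fun k => GG m (EEm mu k (M n))) := fun F n => sumG_zip m _ _ _ _ _ _ _
  refine ⟨hM, hanti, fun n => momC_le_momS _, fun n => neg_half_momS_le_momC _, fun n => momR_le_momS _,
    fun n => sq_momS_le_momR _, fun n => momT_le_momR _, fun n => neg_half_momR_le_momT _,
    fun n => momA3_nonneg _, fun n => momA3_le_momR _, fun n => momC2_nonneg _, fun n => momC2_le_momA3 _,
    fun n => momA2C_le_momA3 _, fun n => neg_half_momA3_le_momA2C _, ?_, ?_, ?_, ?_, ?_⟩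
  · intro F n t ht
    obtain ⟨k, hk, hke⟩ := List.mem_map.1 (List.of_mem_zip ht).2
    rw [← hke, dot_toL]
    exact hdom n k hk
  · intro F hl hle n
    rw [hV]
    exact hS n _ BddS_aFn3 F hl hle
  · intro F hl hle n
    rw [hV]
    exact hS n _ BddS_cFn F hl hle
  · intro F hl hle n
    rw [hV]
    have := hS n _ BddS_negc F hl hle
    have e : (M (n + 1)).Φ (fun x => - cFn x) = - (M (n + 1)).Φ cFn := by
      have h3 : 0 < 3 := by norm_num
      have := (M (n + 1)).Φ_const_mul h3 (-1) BddS_cFn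
      simpa using this
    rw [e] at this
    exact this
  · intro F hl hle n
    rw [hV]
    exact hS n _ (SLaw.BddS.pow BddS_aFn3 2) F hl hle

end laws

lemma aFn3_convexSym' : ConvexSym (aFn 3) := aFn_convexSym' (by norm_num)

lemma aSq_convexSym : ConvexSym (fun x => aFn 3 x ^ 2) := by
  have h := aFn3_convexSym'
  refine ⟨?_, ?_, ?_⟩
  · have := h.convex.pow (fun x hx => aFn_nonneg (by norm_num) hx) 2
    exact this
  · exact h.cont.pow 2
  · intro σ x hx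
    simp only [h.sym σ x hx]

/-- `r` decreases with the level, regular tree -/
theorem momR_leaf_antitone (b : ℕ) (lam : ℝ) (hch : ∀ i j : Fin 3, 0 ≤ Crest.ProbabilityR.Broadcast.channel 3 lam i j) :
    Antitone fun n => momR (leafSL 3 b lam n (by norm_num) hch) :=
  Φ_leaf_antitone b lam (by norm_num) hch aSq_convexSym

/-- `r` decreases with the level, Poisson tree -/
theorem momR_gw_antitone (lam d : ℝ) (hd : 0 ≤ d) (hch : ∀ i j : Fin 3, 0 ≤ Crest.ProbabilityR.Broadcast.channel 3 lam i j) :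
    Antitone fun n => momR (gwSL 3 lam d n hd (by norm_num) hch) :=
  Φ_gw_antitone lam d hd (by norm_num) hch aSq_convexSym

/-- **Regular tree**: a checked chain of cells.  `hr0`: `r ≤ r0` at some level (for `r0 = 1` see `momR_le_one`). -/
theorem leaf_chainA {b : ℕ} (hb : 0 < b) {lam : ℝ} (hbl : (b : ℝ) * lam ^ 2 = 1)
    (hch : ∀ i j : Fin 3, 0 ≤ Crest.ProbabilityR.Broadcast.channel 3 lam i j) {μ1 μ2 r0 : ℚ}
    (h1 : (μ1 : ℝ) ≤ -lam) (h2 : -lam ≤ μ2) (h0 : (0 : ℝ) ≤ μ1) {cells : List CellD} {t t' : ℤ}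
    (hr0 : ∃ N, momR (leafSL 3 b lam N (by norm_num) hch) ≤ r0)
    (hadj : chainAdj t cells = some t')
    (hall : AllOK (fun c => checkCell tb5 (.reg b) μ1 μ2 r0 c = true) cells)
    (hx : ∃ n, momS (leafSL 3 b lam n (by norm_num) hch) < qs t') :
    ∃ n, momS (leafSL 3 b lam n (by norm_num) hch) < qs t :=
  chain_exit (seqFacts_of (stepBound_leaf b hb lam hbl hch) (fun _ h => by cases h; exact hb)
    (momR_leaf_antitone b lam hch) (fun _ k hk => dom_reg hb hbl hch _ k hk)) h1 h2 h0 (momS_leaf_antitone b lam (by norm_num) hch)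
    (by
      obtain ⟨N, hN⟩ := hr0
      exact ⟨N, fun n hn => (momR_leaf_antitone b lam hch hn).trans hN⟩) hadj hall hx

/-- **Poisson tree**: a checked chain of cells. -/
theorem gw_chainA {d : ℝ} (hd : 0 ≤ d) {lam : ℝ} (hdl : d * lam ^ 2 = 1)
    (hch : ∀ i j : Fin 3, 0 ≤ Crest.ProbabilityR.Broadcast.channel 3 lam i j) {μ1 μ2 r0 : ℚ}
    (h1 : (μ1 : ℝ) ≤ -lam) (h2 : -lam ≤ μ2) (h0 : (0 : ℝ) ≤ μ1) {cells : List CellD} {t t' : ℤ}
    (hr0 : ∃ N, momR (gwSL 3 lam d N hd (by norm_num) hch) ≤ r0)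
    (hadj : chainAdj t cells = some t')
    (hall : AllOK (fun c => checkCell tb5 .pois μ1 μ2 r0 c = true) cells)
    (hx : ∃ n, momS (gwSL 3 lam d n hd (by norm_num) hch) < qs t') :
    ∃ n, momS (gwSL 3 lam d n hd (by norm_num) hch) < qs t :=
  chain_exit (seqFacts_of (stepBound_gw d hd lam hdl hch) (fun _ h => by cases h)
    (momR_gw_antitone lam d hd hch) (fun _ _ _ => trivial)) h1 h2 h0 (momS_gw_antitone lam d hd (by norm_num) hch)
    (by
      obtain ⟨N, hN⟩ := hr0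
      exact ⟨N, fun n hn => (momR_gw_antitone lam d hd hch hn).trans hN⟩) hadj hall hx

/-- the trivial `r0` -/
lemma momR_le_one (H : SLaw 3) : momR H ≤ ((1 : ℚ) : ℝ) := by
  have := (momR_le_momS H).trans (momS_le_one H)
  simpa using this

/-- the whole chain as one function, with the trivial `r0 = 1` -/
def chainOK (T : Tbl) (M : Mdl) (μ1 μ2 : ℚ) : ℤ → List CellD → Option ℤ
  | t, [] => some t
  | t, c :: cs => if decide (c.s1 = t) && checkCell T M μ1 μ2 1 c then chainOK T M μ1 μ2 c.s2 cs else none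

lemma chainOK_parts {T : Tbl} {M : Mdl} {μ1 μ2 : ℚ} (cells : List CellD) {t t' : ℤ}
    (hc : chainOK T M μ1 μ2 t cells = some t') :
    chainAdj t cells = some t' ∧ AllOK (fun c => checkCell T M μ1 μ2 1 c = true) cells := by
  induction cells generalizing t with
  | nil =>
    obtain rfl : t = t' := Option.some.inj hc
    exact ⟨rfl, .nil⟩
  | cons c cs ih =>
    simp only [chainOK] at hc
    split_ifs at hc with hcc
    simp only [Bool.and_eq_true, decide_eq_true_eq] at hcc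
    obtain ⟨e, hck⟩ := hcc
    obtain ⟨h1, h2⟩ := ih hc
    refine ⟨?_, .cons hck h2⟩
    simp only [chainAdj]
    rw [if_pos e]
    exact h1

/-- **Regular tree**: a checked chain of cells, `r0 = 1`. -/
theorem leaf_chain {b : ℕ} (hb : 0 < b) {lam : ℝ} (hbl : (b : ℝ) * lam ^ 2 = 1)
    (hch : ∀ i j : Fin 3, 0 ≤ Crest.ProbabilityR.Broadcast.channel 3 lam i j) {μ1 μ2 : ℚ}
    (h1 : (μ1 : ℝ) ≤ -lam) (h2 : -lam ≤ μ2) (h0 : (0 : ℝ) ≤ μ1) {cells : List CellD} {t t' : ℤ}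
    (hc : chainOK tb5 (.reg b) μ1 μ2 t cells = some t')
    (hx : ∃ n, momS (leafSL 3 b lam n (by norm_num) hch) < qs t') :
    ∃ n, momS (leafSL 3 b lam n (by norm_num) hch) < qs t :=
  leaf_chainA hb hbl hch h1 h2 h0 ⟨0, momR_le_one _⟩ (chainOK_parts cells hc).1 (chainOK_parts cells hc).2 hx

/-- **Poisson tree**: a checked chain of cells, `r0 = 1`. -/
theorem gw_chain {d : ℝ} (hd : 0 ≤ d) {lam : ℝ} (hdl : d * lam ^ 2 = 1)
    (hch : ∀ i j : Fin 3, 0 ≤ Crest.ProbabilityR.Broadcast.channel 3 lam i j) {μ1 μ2 : ℚ}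
    (h1 : (μ1 : ℝ) ≤ -lam) (h2 : -lam ≤ μ2) (h0 : (0 : ℝ) ≤ μ1) {cells : List CellD} {t t' : ℤ}
    (hc : chainOK tb5 .pois μ1 μ2 t cells = some t')
    (hx : ∃ n, momS (gwSL 3 lam d n hd (by norm_num) hch) < qs t') :
    ∃ n, momS (gwSL 3 lam d n hd (by norm_num) hch) < qs t :=
  gw_chainA hd hdl hch h1 h2 h0 ⟨0, momR_le_one _⟩ (chainOK_parts cells hc).1 (chainOK_parts cells hc).2 hx

end Crest.Agent.Lib.Bc.CloLite
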