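import Crest.Agent.Lib.Bc.CloLite.Wire2
import Crest.Agent.Lib.Bc.CloLite.Data.B4
import Crest.Agent.Lib.Bc.CloLite.Data.B5
import Crest.Agent.Lib.Bc.CloLite.Data.B6
import Crest.Agent.Lib.Bc.CloLite.Data.B7
import Crest.Agent.Lib.Bc.CloLite.Data.B8
import Crest.Agent.Lib.Bc.CloLite.Data.B9
import Crest.Agent.Lib.Bc.CloLite.Data.B10
import Crest.Agent.Lib.Bc.CloLite.Data.B11
import Crest.Agent.Lib.Bc.CloLite.Data.B12
import Crest.Agent.Lib.Bc.CloLite.Data.B13
import Crest.Agent.Lib.Bc.CloLite.Data.B14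
import Crest.Agent.Lib.Bc.CloLite.Data.B15
import Crest.Agent.Lib.Bc.CloLite.Data.B16
import Crest.Agent.Lib.Bc.CloLite.Data.B17
import Crest.Agent.Lib.Bc.CloLite.Data.B18
import Crest.Agent.Lib.Bc.CloLite.Data.B19
import Crest.Agent.Lib.Bc.CloLite.Data.B20
import Crest.Agent.Lib.Bc.CloLite.Data.B21
import Crest.Agent.Lib.Bc.CloLite.Data.B22
import Crest.Agent.Lib.Bc.CloLite.Data.B23
import Crest.Agent.Lib.Bc.CloLite.Data.B24
import Crest.Agent.Lib.Bc.CloLite.Data.B25
import Crest.Agent.Lib.Bc.CloLite.Data.B26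
import Crest.Agent.Lib.Bc.CloLite.Data.B27
import Crest.Agent.Lib.Bc.CloLite.Data.B28
import Crest.Agent.Lib.Bc.Orbit.B5E.Exit
import Crest.Agent.Lib.Bc.Orbit.B6E.Exit
import Crest.Agent.Lib.Bc.Orbit.O36E150
import Crest.Agent.Lib.Bc.TailShort.Final
/-!
# Row 163, `q = 3`, `lam < 0`: the exits `s < 1/25` of the regular trees `4 ≤ b ≤ 28`

`b = 4`: grid exit `O36` (level 150) + chain of cells + tail; `b = 5, 6`: grid exit + chain of cells;
`b ≥ 7`: chain of cells from above `1`.  Generated by `genB.py`.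
-/
set_option autoImplicit false
open Filter Topology
open Crest.ProbabilityR.Broadcast
namespace Crest.Agent.Lib.Bc.CloLite.FinalB
open Crest.Agent.Lib.Bc Crest.Agent.Lib.Bc.CloLite

/-- the top of a chain above `1`, with the trivial bound on `r` -/
theorem topR (b : ℕ) {x r : ℝ} (hx : 1 < x) (hr : 1 ≤ r) : ExitBR b x r := fun lam _ _ hch =>
  ⟨0, lt_of_le_of_lt (momS_le_one _) hx, (momR_le_one _).trans (by simpa using hr)⟩

theorem grid5 {x r : ℝ} (hx : 18 / 100 ≤ x) (hr : 1 ≤ r) : ExitBR 5 x r := fun lam hl hb hch =>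
  ⟨40, (GridO.B5E.exit_crit lam hl (by exact_mod_cast hb) hch).trans_le hx, (momR_le_one _).trans (by simpa using hr)⟩

theorem grid6 {x r : ℝ} (hx : 21 / 100 ≤ x) (hr : 1 ≤ r) : ExitBR 6 x r := fun lam hl hb hch =>
  ⟨24, (GridO.B6E.exit_crit lam hl (by exact_mod_cast hb) hch).trans_le hx, (momR_le_one _).trans (by simpa using hr)⟩

/-- the grid exit at `b = 4` -/
theorem grid4 {x r : ℝ} (hx : 253 / 2500 < x) (hr : 169 / 10000 ≤ r) : ExitBR 4 x r := fun lam hl hb hch => by
  have hb' : (4 : ℝ) * lam ^ 2 = 1 := by exact_mod_cast hb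
  have e : lam = -(1 / 2) := by nlinarith [sq_nonneg (lam + 1 / 2), sq_nonneg (lam - 1 / 2)]
  subst e
  exact ⟨150, lt_of_le_of_lt GridO.O36.a150 hx, GridO.O36.r150.trans hr⟩

/-- `b = 4` -/
theorem exit4 : ExitB 4 (1 / 25) :=
  (exitB_chainA (by norm_num) (by norm_num [Data.B4.mu1]) (by norm_num [Data.B4.mu2]) (by norm_num [Data.B4.mu1])
    (by norm_num [Data.B4.mu2]) Data.B4.chain Data.B4.all
    (grid4 (by norm_num [Data.B4.t1, qs, Rat.divInt_eq_div]) (by norm_num [Data.B4.r0]))).mono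
    (by norm_num [Data.B4.t0, qs, Rat.divInt_eq_div])

/-- **`H4` by the closure.** -/
theorem H4b : Tendsto (advantage 3 4 (-(1 / 2 : ℝ))) atTop (𝓝 0) := by
  exact Tail.Loose.tail_leaf TailShort.tailPairs (le_refl 4) (by norm_num) (by norm_num) GridO.hch3
    (exit4 _ (by norm_num) (by norm_num) GridO.hch3)

theorem exit5 : ExitB 5 (1 / 25) :=
  (exitB_chainA (by norm_num) (by norm_num [Data.B5.mu1]) (by norm_num [Data.B5.mu2]) (by norm_num [Data.B5.mu1])
    (by norm_num [Data.B5.mu2]) Data.B5.chain Data.B5.all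
    (grid5 (by norm_num [Data.B5.t1, qs, Rat.divInt_eq_div]) (by norm_num [Data.B5.r0]))).mono (by norm_num [Data.B5.t0, qs, Rat.divInt_eq_div])

theorem exit6 : ExitB 6 (1 / 25) :=
  (exitB_chainA (by norm_num) (by norm_num [Data.B6.mu1]) (by norm_num [Data.B6.mu2]) (by norm_num [Data.B6.mu1])
    (by norm_num [Data.B6.mu2]) Data.B6.chain Data.B6.all
    (grid6 (by norm_num [Data.B6.t1, qs, Rat.divInt_eq_div]) (by norm_num [Data.B6.r0]))).mono (by norm_num [Data.B6.t0, qs, Rat.divInt_eq_div])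

theorem exit7 : ExitB 7 (1 / 25) :=
  (exitB_chainA (by norm_num) (by norm_num [Data.B7.mu1]) (by norm_num [Data.B7.mu2]) (by norm_num [Data.B7.mu1])
    (by norm_num [Data.B7.mu2]) Data.B7.chain Data.B7.all
    (topR 7 (by norm_num [Data.B7.t1, qs, Rat.divInt_eq_div]) (by norm_num [Data.B7.r0]))).mono (by norm_num [Data.B7.t0, qs, Rat.divInt_eq_div])

theorem exit8 : ExitB 8 (1 / 25) :=
  (exitB_chainA (by norm_num) (by norm_num [Data.B8.mu1]) (by norm_num [Data.B8.mu2]) (by norm_num [Data.B8.mu1])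
    (by norm_num [Data.B8.mu2]) Data.B8.chain Data.B8.all
    (topR 8 (by norm_num [Data.B8.t1, qs, Rat.divInt_eq_div]) (by norm_num [Data.B8.r0]))).mono (by norm_num [Data.B8.t0, qs, Rat.divInt_eq_div])

theorem exit9 : ExitB 9 (1 / 25) :=
  (exitB_chainA (by norm_num) (by norm_num [Data.B9.mu1]) (by norm_num [Data.B9.mu2]) (by norm_num [Data.B9.mu1])
    (by norm_num [Data.B9.mu2]) Data.B9.chain Data.B9.all
    (topR 9 (by norm_num [Data.B9.t1, qs, Rat.divInt_eq_div]) (by norm_num [Data.B9.r0]))).mono (by norm_num [Data.B9.t0, qs, Rat.divInt_eq_div])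

theorem exit10 : ExitB 10 (1 / 25) :=
  (exitB_chainA (by norm_num) (by norm_num [Data.B10.mu1]) (by norm_num [Data.B10.mu2]) (by norm_num [Data.B10.mu1])
    (by norm_num [Data.B10.mu2]) Data.B10.chain Data.B10.all
    (topR 10 (by norm_num [Data.B10.t1, qs, Rat.divInt_eq_div]) (by norm_num [Data.B10.r0]))).mono (by norm_num [Data.B10.t0, qs, Rat.divInt_eq_div])

theorem exit11 : ExitB 11 (1 / 25) :=
  (exitB_chainA (by norm_num) (by norm_num [Data.B11.mu1]) (by norm_num [Data.B11.mu2]) (by norm_num [Data.B11.mu1])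
    (by norm_num [Data.B11.mu2]) Data.B11.chain Data.B11.all
    (topR 11 (by norm_num [Data.B11.t1, qs, Rat.divInt_eq_div]) (by norm_num [Data.B11.r0]))).mono (by norm_num [Data.B11.t0, qs, Rat.divInt_eq_div])

theorem exit12 : ExitB 12 (1 / 25) :=
  (exitB_chainA (by norm_num) (by norm_num [Data.B12.mu1]) (by norm_num [Data.B12.mu2]) (by norm_num [Data.B12.mu1])
    (by norm_num [Data.B12.mu2]) Data.B12.chain Data.B12.all
    (topR 12 (by norm_num [Data.B12.t1, qs, Rat.divInt_eq_div]) (by norm_num [Data.B12.r0]))).mono (by norm_num [Data.B12.t0, qs, Rat.divInt_eq_div])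

theorem exit13 : ExitB 13 (1 / 25) :=
  (exitB_chainA (by norm_num) (by norm_num [Data.B13.mu1]) (by norm_num [Data.B13.mu2]) (by norm_num [Data.B13.mu1])
    (by norm_num [Data.B13.mu2]) Data.B13.chain Data.B13.all
    (topR 13 (by norm_num [Data.B13.t1, qs, Rat.divInt_eq_div]) (by norm_num [Data.B13.r0]))).mono (by norm_num [Data.B13.t0, qs, Rat.divInt_eq_div])

theorem exit14 : ExitB 14 (1 / 25) :=
  (exitB_chainA (by norm_num) (by norm_num [Data.B14.mu1]) (by norm_num [Data.B14.mu2]) (by norm_num [Data.B14.mu1])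
    (by norm_num [Data.B14.mu2]) Data.B14.chain Data.B14.all
    (topR 14 (by norm_num [Data.B14.t1, qs, Rat.divInt_eq_div]) (by norm_num [Data.B14.r0]))).mono (by norm_num [Data.B14.t0, qs, Rat.divInt_eq_div])

theorem exit15 : ExitB 15 (1 / 25) :=
  (exitB_chainA (by norm_num) (by norm_num [Data.B15.mu1]) (by norm_num [Data.B15.mu2]) (by norm_num [Data.B15.mu1])
    (by norm_num [Data.B15.mu2]) Data.B15.chain Data.B15.all
    (topR 15 (by norm_num [Data.B15.t1, qs, Rat.divInt_eq_div]) (by norm_num [Data.B15.r0]))).mono (by norm_num [Data.B15.t0, qs, Rat.divInt_eq_div])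

theorem exit16 : ExitB 16 (1 / 25) :=
  (exitB_chainA (by norm_num) (by norm_num [Data.B16.mu1]) (by norm_num [Data.B16.mu2]) (by norm_num [Data.B16.mu1])
    (by norm_num [Data.B16.mu2]) Data.B16.chain Data.B16.all
    (topR 16 (by norm_num [Data.B16.t1, qs, Rat.divInt_eq_div]) (by norm_num [Data.B16.r0]))).mono (by norm_num [Data.B16.t0, qs, Rat.divInt_eq_div])

theorem exit17 : ExitB 17 (1 / 25) :=
  (exitB_chainA (by norm_num) (by norm_num [Data.B17.mu1]) (by norm_num [Data.B17.mu2]) (by norm_num [Data.B17.mu1])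
    (by norm_num [Data.B17.mu2]) Data.B17.chain Data.B17.all
    (topR 17 (by norm_num [Data.B17.t1, qs, Rat.divInt_eq_div]) (by norm_num [Data.B17.r0]))).mono (by norm_num [Data.B17.t0, qs, Rat.divInt_eq_div])

theorem exit18 : ExitB 18 (1 / 25) :=
  (exitB_chainA (by norm_num) (by norm_num [Data.B18.mu1]) (by norm_num [Data.B18.mu2]) (by norm_num [Data.B18.mu1])
    (by norm_num [Data.B18.mu2]) Data.B18.chain Data.B18.all
    (topR 18 (by norm_num [Data.B18.t1, qs, Rat.divInt_eq_div]) (by norm_num [Data.B18.r0]))).mono (by norm_num [Data.B18.t0, qs, Rat.divInt_eq_div])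

theorem exit19 : ExitB 19 (1 / 25) :=
  (exitB_chainA (by norm_num) (by norm_num [Data.B19.mu1]) (by norm_num [Data.B19.mu2]) (by norm_num [Data.B19.mu1])
    (by norm_num [Data.B19.mu2]) Data.B19.chain Data.B19.all
    (topR 19 (by norm_num [Data.B19.t1, qs, Rat.divInt_eq_div]) (by norm_num [Data.B19.r0]))).mono (by norm_num [Data.B19.t0, qs, Rat.divInt_eq_div])

theorem exit20 : ExitB 20 (1 / 25) :=
  (exitB_chainA (by norm_num) (by norm_num [Data.B20.mu1]) (by norm_num [Data.B20.mu2]) (by norm_num [Data.B20.mu1])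
    (by norm_num [Data.B20.mu2]) Data.B20.chain Data.B20.all
    (topR 20 (by norm_num [Data.B20.t1, qs, Rat.divInt_eq_div]) (by norm_num [Data.B20.r0]))).mono (by norm_num [Data.B20.t0, qs, Rat.divInt_eq_div])

theorem exit21 : ExitB 21 (1 / 25) :=
  (exitB_chainA (by norm_num) (by norm_num [Data.B21.mu1]) (by norm_num [Data.B21.mu2]) (by norm_num [Data.B21.mu1])
    (by norm_num [Data.B21.mu2]) Data.B21.chain Data.B21.all
    (topR 21 (by norm_num [Data.B21.t1, qs, Rat.divInt_eq_div]) (by norm_num [Data.B21.r0]))).mono (by norm_num [Data.B21.t0, qs, Rat.divInt_eq_div])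

theorem exit22 : ExitB 22 (1 / 25) :=
  (exitB_chainA (by norm_num) (by norm_num [Data.B22.mu1]) (by norm_num [Data.B22.mu2]) (by norm_num [Data.B22.mu1])
    (by norm_num [Data.B22.mu2]) Data.B22.chain Data.B22.all
    (topR 22 (by norm_num [Data.B22.t1, qs, Rat.divInt_eq_div]) (by norm_num [Data.B22.r0]))).mono (by norm_num [Data.B22.t0, qs, Rat.divInt_eq_div])

theorem exit23 : ExitB 23 (1 / 25) :=
  (exitB_chainA (by norm_num) (by norm_num [Data.B23.mu1]) (by norm_num [Data.B23.mu2]) (by norm_num [Data.B23.mu1])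
    (by norm_num [Data.B23.mu2]) Data.B23.chain Data.B23.all
    (topR 23 (by norm_num [Data.B23.t1, qs, Rat.divInt_eq_div]) (by norm_num [Data.B23.r0]))).mono (by norm_num [Data.B23.t0, qs, Rat.divInt_eq_div])

theorem exit24 : ExitB 24 (1 / 25) :=
  (exitB_chainA (by norm_num) (by norm_num [Data.B24.mu1]) (by norm_num [Data.B24.mu2]) (by norm_num [Data.B24.mu1])
    (by norm_num [Data.B24.mu2]) Data.B24.chain Data.B24.all
    (topR 24 (by norm_num [Data.B24.t1, qs, Rat.divInt_eq_div]) (by norm_num [Data.B24.r0]))).mono (by norm_num [Data.B24.t0, qs, Rat.divInt_eq_div])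

theorem exit25 : ExitB 25 (1 / 25) :=
  (exitB_chainA (by norm_num) (by norm_num [Data.B25.mu1]) (by norm_num [Data.B25.mu2]) (by norm_num [Data.B25.mu1])
    (by norm_num [Data.B25.mu2]) Data.B25.chain Data.B25.all
    (topR 25 (by norm_num [Data.B25.t1, qs, Rat.divInt_eq_div]) (by norm_num [Data.B25.r0]))).mono (by norm_num [Data.B25.t0, qs, Rat.divInt_eq_div])

theorem exit26 : ExitB 26 (1 / 25) :=
  (exitB_chainA (by norm_num) (by norm_num [Data.B26.mu1]) (by norm_num [Data.B26.mu2]) (by norm_num [Data.B26.mu1])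
    (by norm_num [Data.B26.mu2]) Data.B26.chain Data.B26.all
    (topR 26 (by norm_num [Data.B26.t1, qs, Rat.divInt_eq_div]) (by norm_num [Data.B26.r0]))).mono (by norm_num [Data.B26.t0, qs, Rat.divInt_eq_div])

theorem exit27 : ExitB 27 (1 / 25) :=
  (exitB_chainA (by norm_num) (by norm_num [Data.B27.mu1]) (by norm_num [Data.B27.mu2]) (by norm_num [Data.B27.mu1])
    (by norm_num [Data.B27.mu2]) Data.B27.chain Data.B27.all
    (topR 27 (by norm_num [Data.B27.t1, qs, Rat.divInt_eq_div]) (by norm_num [Data.B27.r0]))).mono (by norm_num [Data.B27.t0, qs, Rat.divInt_eq_div])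

theorem exit28 : ExitB 28 (1 / 25) :=
  (exitB_chainA (by norm_num) (by norm_num [Data.B28.mu1]) (by norm_num [Data.B28.mu2]) (by norm_num [Data.B28.mu1])
    (by norm_num [Data.B28.mu2]) Data.B28.chain Data.B28.all
    (topR 28 (by norm_num [Data.B28.t1, qs, Rat.divInt_eq_div]) (by norm_num [Data.B28.r0]))).mono (by norm_num [Data.B28.t0, qs, Rat.divInt_eq_div])

/-- the exits of all regular trees, in the shape of `Neg3Assembly.S0244_of_exits` -/
theorem hxb : ∀ b : ℕ, 5 ≤ b → b ≤ 28 → ∀ lam : ℝ, lam < 0 → (b : ℝ) * lam ^ 2 = 1 →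
    ∀ hch : ∀ i j : Fin 3, 0 ≤ channel 3 lam i j,
    ∃ n, momS (leafSL 3 b lam n (by norm_num) hch) < 1 / 25 :=
  hxb_of exit5 exit6 exit7 exit8 exit9 exit10 exit11 exit12 exit13 exit14 exit15 exit16 exit17 exit18 exit19 exit20 exit21 exit22 exit23 exit24 exit25 exit26 exit27 exit28

end Crest.Agent.Lib.Bc.CloLite.FinalB
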