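import Crest.Agent.Lib.Bc.CloLite.Check
import Crest.Agent.Lib.Bc.CloLite.Assemble
/-!
# Row 163, `q = 3`, `lam < 0`: from checked chains of cells to `ExitB`, `ExitP`

The tilt `-lam` of a critical tree lies in a rational interval `[μ1, μ2]`: rational side conditions only.
-/
open Filter Topology
open Crest.ProbabilityR.Broadcast
namespace Crest.Agent.Lib.Bc.CloLite
open Crest.Agent.Lib.Bc

lemma mu_bounds {x lam μ1 μ2 : ℝ} (hl : lam < 0) (hx : x * lam ^ 2 = 1) (hx0 : 0 < x)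
    (h0 : 0 ≤ μ1) (h20 : 0 ≤ μ2) (h1 : μ1 ^ 2 * x ≤ 1) (h2 : 1 ≤ μ2 ^ 2 * x) : μ1 ≤ -lam ∧ -lam ≤ μ2 := by
  have hm : 0 < -lam := by linarith
  have e : (-lam) ^ 2 = lam ^ 2 := by ring
  constructor
  · by_contra hcon
    push_neg at hcon
    have : (-lam) ^ 2 < μ1 ^ 2 := by nlinarith
    rw [e] at this
    nlinarith
  · by_contra hcon
    push_neg at hcon
    have : μ2 ^ 2 < (-lam) ^ 2 := by nlinarith
    rw [e] at this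
    nlinarith

/-- trivial top exit -/
theorem exitB_top (b : ℕ) {x : ℝ} (hx : 1 < x) : ExitB b x := fun lam _ _ hch =>
  ⟨0, lt_of_le_of_lt (momS_le_one _) hx⟩

/-- trivial top exit -/
theorem exitP_top (d₁ d₂ : ℝ) {x : ℝ} (hx : 1 < x) : ExitP d₁ d₂ x := fun d hd _ _ lam _ _ hch =>
  ⟨0, lt_of_le_of_lt (momS_le_one _) hx⟩

theorem ExitB.mono {b : ℕ} {x y : ℝ} (h : ExitB b x) (hxy : x ≤ y) : ExitB b y := fun lam hl hbl hch => by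
  obtain ⟨n, hn⟩ := h lam hl hbl hch
  exact ⟨n, hn.trans_le hxy⟩

theorem ExitP.mono {d₁ d₂ x y : ℝ} (h : ExitP d₁ d₂ x) (hxy : x ≤ y) : ExitP d₁ d₂ y :=
  fun d hd h1 h2 lam hl hdl hch => by
    obtain ⟨n, hn⟩ := h d hd h1 h2 lam hl hdl hch
    exact ⟨n, hn.trans_le hxy⟩

/-- **A chain for one regular tree.** -/
theorem exitB_chain {b : ℕ} (hb : 0 < b) {μ1 μ2 : ℚ} (h0 : 0 ≤ μ1) (h20 : 0 ≤ μ2) (h1 : μ1 ^ 2 * b ≤ 1)
    (h2 : 1 ≤ μ2 ^ 2 * b) {cells : List CellD} {t t' : ℤ}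
    (hc : chainOK tb5 (.reg b) μ1 μ2 t cells = some t') (hx : ExitB b ((qs t' : ℚ) : ℝ)) :
    ExitB b ((qs t : ℚ) : ℝ) := fun lam hl hbl hch => by
  have hb' : (0 : ℝ) < b := by exact_mod_cast hb
  have h0' : (0 : ℝ) ≤ μ1 := by exact_mod_cast h0
  have h20' : (0 : ℝ) ≤ μ2 := by exact_mod_cast h20
  have h1' : (μ1 : ℝ) ^ 2 * b ≤ 1 := by exact_mod_cast h1
  have h2' : 1 ≤ (μ2 : ℝ) ^ 2 * b := by exact_mod_cast h2
  obtain ⟨m1, m2⟩ := mu_bounds hl hbl hb' h0' h20' h1' h2'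
  exact leaf_chain hb hbl hch m1 m2 h0' hc (hx lam hl hbl hch)

/-- **A chain for a window of Poisson degrees.** -/
theorem exitP_chain {d₁ d₂ : ℝ} (hd₁ : 0 < d₁) {μ1 μ2 : ℚ} (h0 : 0 ≤ μ1) (h20 : 0 ≤ μ2)
    (h1 : (μ1 : ℝ) ^ 2 * d₂ ≤ 1) (h2 : 1 ≤ (μ2 : ℝ) ^ 2 * d₁) {cells : List CellD} {t t' : ℤ}
    (hc : chainOK tb5 .pois μ1 μ2 t cells = some t') (hx : ExitP d₁ d₂ ((qs t' : ℚ) : ℝ)) :
    ExitP d₁ d₂ ((qs t : ℚ) : ℝ) := fun d hd hd1 hd2 lam hl hdl hch => by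
  have h0' : (0 : ℝ) ≤ μ1 := by exact_mod_cast h0
  have h20' : (0 : ℝ) ≤ μ2 := by exact_mod_cast h20
  have hdp : 0 < d := lt_of_lt_of_le hd₁ hd1
  have h1' : (μ1 : ℝ) ^ 2 * d ≤ 1 := (mul_le_mul_of_nonneg_left hd2 (sq_nonneg _)).trans h1
  have h2' : 1 ≤ (μ2 : ℝ) ^ 2 * d := h2.trans (mul_le_mul_of_nonneg_left hd1 (sq_nonneg _))
  obtain ⟨m1, m2⟩ := mu_bounds hl hdl hdp h0' h20' h1' h2'
  exact gw_chain hd hdl hch m1 m2 h0' hc (hx d hd hd1 hd2 lam hl hdl hch)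

end Crest.Agent.Lib.Bc.CloLite
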