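import Crest.Agent.Lib.Bc.CloLite.Wire
import Crest.Agent.Lib.Bc.GwThin
/-!
# Row 163, `q = 3`, `lam < 0`: wiring with a bound `momR ≤ r0`, and the Poisson windows

* `ExitBR b x r0`, `ExitPR d₁ d₂ x r0`: an exit `momS < x` at a level where also `momR ≤ r0`.
* `exitB_chainA`, `exitP_chainA`: chains of cells checked at `r0`.
* `exitPR_of_upper`: all critical `(d, -1/√d)`, `d ∈ [d₁, d₂]`, from one level of one upper chain `(d', -mu)`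
  (helper35's `gw_window_dominated`).
-/
open Filter Topology
open Crest.ProbabilityR.Broadcast
namespace Crest.Agent.Lib.Bc.CloLite
open Crest.Agent.Lib.Bc

/-- exit with a bound on `r`, regular tree -/
def ExitBR (b : ℕ) (x r0 : ℝ) : Prop :=
  ∀ lam : ℝ, lam < 0 → (b : ℝ) * lam ^ 2 = 1 → ∀ hch : ∀ i j : Fin 3, 0 ≤ channel 3 lam i j,
    ∃ n, momS (leafSL 3 b lam n (by norm_num) hch) < x ∧ momR (leafSL 3 b lam n (by norm_num) hch) ≤ r0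

/-- exit with a bound on `r`, window of Poisson degrees -/
def ExitPR (d₁ d₂ x r0 : ℝ) : Prop :=
  ∀ d : ℝ, ∀ hd : 0 ≤ d, d₁ ≤ d → d ≤ d₂ → ∀ lam : ℝ, lam < 0 → d * lam ^ 2 = 1 →
    ∀ hch : ∀ i j : Fin 3, 0 ≤ channel 3 lam i j,
    ∃ n, momS (gwSL 3 lam d n hd (by norm_num) hch) < x ∧ momR (gwSL 3 lam d n hd (by norm_num) hch) ≤ r0

theorem ExitBR.exitB {b : ℕ} {x r0 : ℝ} (h : ExitBR b x r0) : ExitB b x := fun lam hl hbl hch => by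
  obtain ⟨n, hn, _⟩ := h lam hl hbl hch
  exact ⟨n, hn⟩

theorem ExitPR.exitP {d₁ d₂ x r0 : ℝ} (h : ExitPR d₁ d₂ x r0) : ExitP d₁ d₂ x :=
  fun d hd h1 h2 lam hl hdl hch => by
    obtain ⟨n, hn, _⟩ := h d hd h1 h2 lam hl hdl hch
    exact ⟨n, hn⟩

theorem ExitPR.trans {a b c x r0 : ℝ} (h₁ : ExitPR a b x r0) (h₂ : ExitPR b c x r0) : ExitPR a c x r0 := by
  intro d hd h1 h2
  rcases le_total d b with h | h
  · exact h₁ d hd h1 h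
  · exact h₂ d hd h h2

/-- **A chain at `r0` for one regular tree.** -/
theorem exitB_chainA {b : ℕ} (hb : 0 < b) {μ1 μ2 r0 : ℚ} (h0 : 0 ≤ μ1) (h20 : 0 ≤ μ2) (h1 : μ1 ^ 2 * b ≤ 1)
    (h2 : 1 ≤ μ2 ^ 2 * b) {cells : List CellD} {t t' : ℤ}
    (hadj : chainAdj t cells = some t')
    (hall : AllOK (fun c => checkCell tb5 (.reg b) μ1 μ2 r0 c = true) cells)
    (hx : ExitBR b ((qs t' : ℚ) : ℝ) (r0 : ℝ)) :
    ExitB b ((qs t : ℚ) : ℝ) := fun lam hl hbl hch => by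
  have hb' : (0 : ℝ) < b := by exact_mod_cast hb
  have h0' : (0 : ℝ) ≤ μ1 := by exact_mod_cast h0
  have h20' : (0 : ℝ) ≤ μ2 := by exact_mod_cast h20
  have h1' : (μ1 : ℝ) ^ 2 * b ≤ 1 := by exact_mod_cast h1
  have h2' : 1 ≤ (μ2 : ℝ) ^ 2 * b := by exact_mod_cast h2
  obtain ⟨m1, m2⟩ := mu_bounds hl hbl hb' h0' h20' h1' h2'
  obtain ⟨n, hn, hr⟩ := hx lam hl hbl hch
  exact leaf_chainA hb hbl hch m1 m2 h0' ⟨n, hr⟩ hadj hall ⟨n, hn⟩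

/-- **A chain at `r0` for a window of Poisson degrees.** -/
theorem exitP_chainA {d₁ d₂ : ℝ} (hd₁ : 0 < d₁) {μ1 μ2 r0 : ℚ} (h0 : 0 ≤ μ1) (h20 : 0 ≤ μ2)
    (h1 : (μ1 : ℝ) ^ 2 * d₂ ≤ 1) (h2 : 1 ≤ (μ2 : ℝ) ^ 2 * d₁) {cells : List CellD} {t t' : ℤ}
    (hadj : chainAdj t cells = some t')
    (hall : AllOK (fun c => checkCell tb5 .pois μ1 μ2 r0 c = true) cells)
    (hx : ExitPR d₁ d₂ ((qs t' : ℚ) : ℝ) (r0 : ℝ)) :
    ExitP d₁ d₂ ((qs t : ℚ) : ℝ) := fun d hd hd1 hd2 lam hl hdl hch => by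
  have h0' : (0 : ℝ) ≤ μ1 := by exact_mod_cast h0
  have h20' : (0 : ℝ) ≤ μ2 := by exact_mod_cast h20
  have hdp : 0 < d := lt_of_lt_of_le hd₁ hd1
  have h1' : (μ1 : ℝ) ^ 2 * d ≤ 1 := (mul_le_mul_of_nonneg_left hd2 (sq_nonneg _)).trans h1
  have h2' : 1 ≤ (μ2 : ℝ) ^ 2 * d := h2.trans (mul_le_mul_of_nonneg_left hd1 (sq_nonneg _))
  obtain ⟨m1, m2⟩ := mu_bounds hl hdl hdp h0' h20' h1' h2'
  obtain ⟨n, hn, hr⟩ := hx d hd hd1 hd2 lam hl hdl hch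
  exact gw_chainA hd hdl hch m1 m2 h0' ⟨n, hr⟩ hadj hall ⟨n, hn⟩

/-- a critical `lam` of a degree `d > 0` is `-1/√d` -/
lemma lam_eq_of_crit {d lam : ℝ} (hd : 0 < d) (hl : lam < 0) (h : d * lam ^ 2 = 1) :
    lam = -(1 / Real.sqrt d) := by
  have hs : 0 < Real.sqrt d := Real.sqrt_pos.2 hd
  have e : (Real.sqrt d * (-lam)) ^ 2 = 1 := by
    rw [mul_pow, Real.sq_sqrt hd.le, neg_sq, h]
  have hp : 0 ≤ Real.sqrt d * (-lam) := by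
    have : 0 < -lam := by linarith
    positivity
  have e1 : Real.sqrt d * (-lam) = 1 := by nlinarith [sq_nonneg (Real.sqrt d * (-lam) - 1)]
  field_simp
  linarith

/-- **Window from one upper chain**: every critical `(d, lam)`, `d ∈ [d₁, d₂]`, lies below `(d', -mu)`, if
`1 ≤ mu² d₁` and `d₂ ≤ mu² d'²`. -/
theorem exitPR_of_upper {d₁ d₂ d' mu x r0 : ℝ} (hd₁ : 0 < d₁) (hmu : 0 < mu) (h1 : 1 ≤ mu ^ 2 * d₁)
    (h2 : d₂ ≤ mu ^ 2 * d' ^ 2) (hd' : 0 ≤ d') (hch' : ∀ i j : Fin 3, 0 ≤ channel 3 (-mu) i j) {N : ℕ}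
    (hs : momS (gwSL 3 (-mu) d' N hd' (by norm_num) hch') < x)
    (hr : momR (gwSL 3 (-mu) d' N hd' (by norm_num) hch') ≤ r0) : ExitPR d₁ d₂ x r0 := by
  intro d hd hd1 hd2 lam hl hdl hch
  have hdp : 0 < d := lt_of_lt_of_le hd₁ hd1
  obtain rfl := lam_eq_of_crit hdp hl hdl
  have hsq : 0 < Real.sqrt d := Real.sqrt_pos.2 hdp
  have hsq2 : Real.sqrt d ^ 2 = d := Real.sq_sqrt hd
  have hmd : 1 ≤ mu ^ 2 * d := h1.trans (mul_le_mul_of_nonneg_left hd1 (sq_nonneg _))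
  have hA : 1 / Real.sqrt d ≤ mu := by
    rw [div_le_iff₀ hsq]
    have : (1 : ℝ) ≤ (mu * Real.sqrt d) ^ 2 := by rw [mul_pow, hsq2]; exact hmd
    have h3 : 0 < mu * Real.sqrt d := by positivity
    nlinarith
  have hB : Real.sqrt d ≤ mu * d' := by
    have h3 : Real.sqrt d ^ 2 ≤ (mu * d') ^ 2 := by
      rw [hsq2, mul_pow]; exact hd2.trans h2
    have h4 : 0 ≤ mu * d' := by positivity
    exact abs_le_of_sq_le_sq' h3 h4 |>.2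
  have hdom := gw_window_dominated hdp hA hB hd' (by norm_num) hch hch' N
  exact ⟨N, (hdom (aFn 3) (aFn_convexSym' (by norm_num))).trans_lt hs,
    (hdom (fun x => aFn 3 x ^ 2) aSq_convexSym).trans hr⟩

end Crest.Agent.Lib.Bc.CloLite
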